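import Vale.Agent.P333.Ops

/-! Stars: a curve together with the curves that have a high exit to it. -/

namespace Vale.Agent.P333

open Finset

theorem sum_Ico_le {τ : Type} (a b : τ → ℤ) (K : List τ) : ∀ W : Finset ℤ,
    (∀ t ∈ K, Ico (a t) (b t) ⊆ W) → K.Pairwise (fun s t => b s ≤ a t ∨ b t ≤ a s) →
    (K.map fun t => (b t - a t).toNat).sum ≤ W.card := by
  induction K with
  | nil => intro W _ _; simp
  | cons s K ih =>
    intro W h1 h2
    rw [List.pairwise_cons] at h2
    have h3 := ih (W \ Ico (a s) (b s)) (fun t ht x hx => by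
      rw [mem_sdiff]
      refine ⟨h1 t (by simp [ht]) hx, fun h => ?_⟩
      rw [mem_Ico] at h hx
      have := h2.1 t ht
      omega) h2.2
    have h4 := card_sdiff_add_card_eq_card (h1 s (by simp))
    rw [Int.card_Ico] at h4
    simp only [List.map_cons, List.sum_cons]
    omega

theorem sum_sublist_two {τ : Type} (φ : τ → ℕ) {K L : List τ} (h : K.Sublist L) {s t : τ}
    (hs : s ∈ L) (ht : t ∈ L) (hst : t ≠ s) (h1 : s ∉ K) (h2 : t ∉ K) :
    (K.map φ).sum + φ s + φ t ≤ (L.map φ).sum := by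
  classical
  have e1 := (h.erase s).erase t
  rw [List.erase_of_not_mem h1, List.erase_of_not_mem h2] at e1
  have e2 := (e1.map φ).sum_le_sum (by simp)
  have e3 := List.sum_map_erase φ hs
  have e4 := List.sum_map_erase φ ((List.mem_erase_of_ne hst).2 ht)
  omega

namespace Sys

variable {ι : Type} {A : Sys ι}

/-- a vertex `[α, c)` of the curve of `h` with period `q` that is broken at `c` -/
def Pos (A : Sys ι) (h : ι) (α c : ℤ) (q : ℕ) : Prop :=
  A.hi h (α - 1) ≤ c ∧ c < A.hi h α ∧ (∀ n, α ≤ n → n + q < c → A.X h (n + q) = A.X h n) ∧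
    A.X h c ≠ A.X h (c - q) ∧ 0 < q

theorem Pos.mono {h : ι} {α c β d : ℤ} {q s : ℕ} (h1 : A.Pos h α c q) (h2 : A.Pos h β d s)
    (e : c ≤ d) : α ≤ β := by
  by_contra h3
  have := A.hi_mono h (show β ≤ α - 1 by omega)
  have := h1.1
  have := h2.2.1
  omega

theorem Pos.core {h : ι} {α c β d : ℤ} {q s : ℕ} (h1 : A.Pos h α c q) (h2 : A.Pos h β d s)
    (e : c < d) : c - q ≤ β + s := by
  by_contra h3
  have h4 := h1.mono h2 e.le
  have h5 := h2.2.2.2.2
  have h6 := h1.2.2.2.2
  have e1 := h2.2.2.1 (c - s) (by omega) (by omega)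
  have e2 := h1.2.2.1 (c - s - q) (by omega) (by omega)
  have e3 := h2.2.2.1 (c - s - q) (by omega) (by omega)
  rw [sub_add_cancel] at e1 e2
  rw [show c - s - q + s = c - q by ring] at e3
  exact h1.2.2.2.1 (by rw [e1, e2, e3])

theorem Pos.shift {h : ι} {α c : ℤ} {q : ℕ} (h1 : A.Pos h α c q) :
    A.Pos h (α + A.p h) (c + A.p h) q := by
  obtain ⟨a1, a2, a3, a4, a5⟩ := h1
  have e1 := A.hi_per_mul h (α - 1) 1
  have e2 := A.hi_per_mul h α 1
  rw [mul_one] at e1 e2
  refine ⟨?_, by omega, fun n b1 b2 => ?_, ?_, a5⟩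
  · rw [show α + A.p h - 1 = α - 1 + A.p h by ring]; omega
  · have := a3 (n - A.p h) (by omega) (by omega)
    rw [← A.X_per h (n - A.p h), ← A.X_per h (n - A.p h + q)] at this
    rw [sub_add_cancel, show n - A.p h + q + A.p h = n + q by ring] at this
    exact this
  · rw [A.X_per, show c + A.p h - q = c - q + A.p h by ring, A.X_per]
    exact a4

theorem Ex.word_eq {i j h : ι} {l : ℕ} {α : ℤ} (e : A.Ex i j l) (hα : (A.σ ^ α) h = A.σ j)
    {m : ℕ} (hm : m ≤ l) : A.word i m = seg (A.X h) α m := by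
  have h1 := e.2.2.2.2.1
  rw [A.take_r e.2.2.2.1.le, ← hα, A.word_pow] at h1
  rw [← seg_take _ _ hm, h1, word, word, seg_take _ _ hm]

theorem Ex.touch_pre {i j h : ι} {l : ℕ} {α : ℤ} (e : A.Ex i j l) (hα : (A.σ ^ α) h = A.σ j)
    {m : ℕ} (hm : (A.r i).length ≤ m) : A.Touch (seg (A.X h) α m) i := by
  refine ⟨_, Or.inl ?_, A.vert_self i⟩
  have := e.2.1
  rw [A.r_eq i, e.word_eq hα (by omega)]
  exact seg_pre _ _ hm

variable [Fintype ι]

theorem Ex.pos {i j h : ι} {l : ℕ} {α : ℤ} (e : A.Ex i j l) (hα : (A.σ ^ α) h = A.σ j) :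
    A.Pos h α (α + l) (A.p i) := by
  have h0 : (A.σ ^ (α - 1)) h = j := by
    apply A.σ.injective
    rw [A.pow_succ, sub_add_cancel, hα]
  have hw := e.word_eq hα le_rfl
  obtain ⟨a1, a2, a3, a4, a5, a6⟩ := e
  refine ⟨by rw [hi, h0]; omega, by rw [hi, hα]; omega, fun n b1 b2 => ?_, ?_, A.p_pos i⟩
  · obtain ⟨k, rfl⟩ := Int.le.dest b1
    rw [← seg_inj hw (k := k) (by omega), add_assoc, ← Nat.cast_add,
      ← seg_inj hw (k := k + A.p i) (by omega), Nat.cast_add, ← add_assoc, A.X_per]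
  · rw [A.r_getD a4, A.r_getD (by omega), ← hα, A.X_pow, A.X_pow, Nat.cast_sub (by omega)] at a6
    rwa [add_sub_assoc]

theorem Ex.lt {i j : ι} {l : ℕ} (e : A.Ex i j l) : l < A.p i + A.p j := by
  have h0 : (A.σ ^ (1 : ℤ)) j = A.σ j := by simp
  have h1 := e.pos h0
  have hw := e.word_eq h0 le_rfl
  have h2 : A.p ((A.σ ^ (1 : ℤ)) j) = A.p j := (A.same_pow j 1).p_eq.symm
  by_contra h3
  apply h1.2.2.2.1
  have h4 : ∀ n : ℤ, 0 ≤ n → n < l → A.X ((A.σ ^ (1 : ℤ)) j) n = A.X i n := by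
    intro n b1 b2
    obtain ⟨k, rfl⟩ := Int.eq_ofNat_of_zero_le b1
    rw [A.X_pow, ← seg_inj hw (by omega), zero_add]
  have h5 := A.fw h4 (by omega) (A.p_pos _) (A.p_pos _)
  have h6 := A.p_pos i
  have h7 := h4 (l - A.p i) (by omega) (by omega)
  rw [A.X_pow] at h5 h7
  rw [h5, add_sub_assoc, h7, ← A.X_per i (l - A.p i), sub_add_cancel]

theorem Ex.p_lt {i j : ι} {l : ℕ} (e : A.Ex i j l) : A.p i < A.p j := by
  have := e.lt
  have := e.1
  have := e.2.1
  omega

theorem Ex.touch_suf {i j : ι} {l : ℕ} (e : A.Ex i j l) {Y : Str} (h : A.word i l <:+ Y) :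
    A.Touch Y i := by
  obtain ⟨b, h1, h2, h3⟩ := A.col i l
  have h4 : 0 ≤ b := by
    by_contra h4
    have := A.hi_mono i (show b ≤ 0 by omega)
    rw [A.hi_zero] at this
    have := e.2.1
    omega
  obtain ⟨k, hk⟩ := Int.le.dest h1
  refine ⟨_, Or.inr (List.IsSuffix.trans ?_ h), A.vert_seg i b k (by omega) (by omega)⟩
  exact seg_suf _ h4 (by omega)

theorem exists_norm {h j : ι} (e : A.Same h j) (J : ℤ) (l : ℕ) :
    ∃ α : ℤ, (A.σ ^ α) h = A.σ j ∧ J ≤ α + l ∧ α + l < J + A.p h := by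
  obtain ⟨a, rfl⟩ := e
  have hp : (0 : ℤ) < A.p h := by exact_mod_cast A.p_pos h
  have h1 := Int.emod_nonneg (a + 1 + l - J) hp.ne'
  have h2 := Int.emod_lt_of_pos (a + 1 + l - J) hp
  have h3 := Int.emod_add_mul_ediv (a + 1 + l - J) (A.p h)
  refine ⟨a + 1 + A.p h * (-((a + 1 + l - J) / A.p h)), ?_, ?_, ?_⟩
  · rw [← A.pow_pow, A.pow_p_mul, A.pow_succ]
  · rw [mul_neg]; omega
  · rw [mul_neg]; omega

theorem star_ex {τ : Type} (h : ι) (L : List τ) (f g : τ → ι) (l : τ → ℕ) (hL : L ≠ [])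
    (hex : ∀ t ∈ L, A.Ex (f t) (g t) (l t) ∧ A.Same h (g t))
    (hp : L.Pairwise fun s t => A.p (f s) ≤ A.p (f t)) :
    ∃ i n, A.Touch (A.word i n) h ∧ ∀ K : List τ, K.Sublist L →
      (∀ t ∈ K, ¬ A.Touch (A.word i n) (f t)) →
      K.Pairwise (fun s t => ¬ A.Touch ((A.r (A.σ (g s))).take (l s - A.p (f s))) (f t)) →
      n + (K.map fun t => l t - A.p (f t)).sum ≤ A.p h + (L.map fun t => A.p (f t)).sum := by
  classical
  obtain ⟨s, hs⟩ := List.exists_mem_of_ne_nil _ hL
  obtain ⟨a, ha, -⟩ := exists_norm (hex s hs).2 0 0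
  have hch : ∀ t, ∃ α : ℤ, t ∈ L → (A.σ ^ α) h = A.σ (g t) ∧ a + l s ≤ α + l t ∧
      α + l t < a + l s + A.p h := by
    intro t
    by_cases ht : t ∈ L
    · obtain ⟨α, h1⟩ := exists_norm (hex t ht).2 (a + l s) (l t)
      exact ⟨α, fun _ => h1⟩
    · exact ⟨0, fun h => absurd h ht⟩
  choose α hα using hch
  have ps := (hex s hs).1.pos ha
  have pt : ∀ t ∈ L, A.Pos h (α t) (α t + l t) (A.p (f t)) :=
    fun t ht => (hex t ht).1.pos (hα t ht).1
  have vs : A.Vert h (seg (A.X h) a (l s)) := A.vert_seg h a _ ps.1 ps.2.1.le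
  have hfst : ∀ t ∈ L, α t + l t = a + l s → ∀ m, l s ≤ m → A.Touch (seg (A.X h) a m) (f t) := by
    intro t ht e m hm
    have h1 := ps.mono (pt t ht) e.ge
    have h2 := (pt t ht).mono ps e.le
    have h3 := (hex t ht).1.2.1
    rw [show a = α t by omega]
    exact (hex t ht).1.touch_pre (hα t ht).1 (by omega)
  by_cases hall : ∀ t ∈ L, α t + l t = a + l s
  · refine ⟨(A.σ ^ a) h, l s, ?_, fun K h1 h2 _ => ?_⟩
    · rw [A.word_pow]; exact ⟨_, Or.inl List.prefix_rfl, vs⟩
    · rw [A.word_pow] at h2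
      have h3 : K = [] := List.eq_nil_iff_forall_not_mem.2 fun t ht =>
        h2 t ht (hfst t (h1.subset ht) (hall t (h1.subset ht)) _ le_rfl)
      have h4 := (hex s hs).1.lt
      have h5 := (hex s hs).2.p_eq
      have h6 := List.single_le_sum (l := L.map fun t => A.p (f t)) (by simp) _
        (List.mem_map.2 ⟨s, hs, rfl⟩)
      subst h3
      simp only [List.map_nil, List.sum_nil]
      omega
  obtain ⟨u, hu, hmin⟩ := exists_min_image (L.toFinset.filter fun t => α t + l t ≠ a + l s)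
    (fun t => α t + l t) (by
      push Not at hall
      obtain ⟨t, h1, h2⟩ := hall
      exact ⟨t, by simp [h1, h2]⟩)
  simp only [mem_filter, List.mem_toFinset, and_imp] at hu hmin
  obtain ⟨hu, hu'⟩ := hu
  have hu1 := (hα u hu).2.1
  have hu2 := (hα u hu).2.2
  have hau := ps.mono (pt u hu) hu1
  obtain ⟨n, hn⟩ : ∃ n : ℕ, a + n = α u + l u := ⟨(α u + l u - a).toNat, by omega⟩
  refine ⟨(A.σ ^ a) h, n, ?_, fun K h1 h2 h3 => ?_⟩
  · rw [A.word_pow]; exact ⟨_, Or.inl (seg_pre _ _ (by omega)), vs⟩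
  rw [A.word_pow] at h2
  have hK : ∀ t ∈ K, α u + l u < α t + l t := by
    intro t ht
    have ht' := h1.subset ht
    have b1 : α t + l t ≠ a + l s := fun e => h2 t ht (hfst t ht' e _ (by omega))
    refine lt_of_le_of_ne (hmin t ht' b1) fun e => h2 t ht ?_
    have b2 := (pt t ht').mono (pt u hu) e.ge
    have b3 := (pt u hu).mono (pt t ht') e.le
    refine (hex t ht').1.touch_suf ?_
    rw [(hex t ht').1.word_eq (hα t ht').1 le_rfl]
    exact seg_suf _ (by omega) (by omega)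
  have hsK : s ∉ K := by
    intro e
    have b1 := (hex s hs).1.2.1
    exact h2 s e ((hex s hs).1.touch_pre ha (by omega))
  have huK : u ∉ K := fun e => lt_irrefl _ (hK u e)
  have hus : u ≠ s := by
    rintro rfl
    have b1 := (pt u hu).core ps.shift (by omega)
    have b2 : (A.σ ^ (α u - a)) h = h := by
      apply (A.σ ^ a).injective
      rw [A.pow_pow, add_sub_cancel, ha, (hα u hu).1]
    obtain ⟨k, hk⟩ : ∃ k : ℕ, α u - a = k := ⟨(α u - a).toNat, by omega⟩
    rw [hk, zpow_natCast, Equiv.Perm.coe_pow] at b2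
    have b3 := Function.IsPeriodicPt.minimalPeriod_le (by omega) b2
    rw [← Sys.p] at b3
    omega
  have hsum := sum_sublist_two (fun t => A.p (f t)) h1 hs hu hus hsK huK
  have hcore := sum_Ico_le (fun t => α t + A.p (f t)) (fun t => α t + l t - A.p (f t)) K
    (Ico (α u + l u - A.p (f u)) (a + A.p h + A.p (f s))) (fun t ht => by
      have ht' := h1.subset ht
      exact Ico_subset_Ico ((pt u hu).core (pt t ht') (hK t ht))
        ((pt t ht').core ps.shift (by have := (hα t ht').2.2; omega))) (by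
      refine List.Pairwise.imp_of_mem (fun {x y} hx hy e => ?_) (h3.and (hp.sublist h1))
      have hx' := h1.subset hx
      have hy' := h1.subset hy
      rcases lt_trichotomy (α x + l x) (α y + l y) with b | b | b
      · exact Or.inl ((pt x hx').core (pt y hy') b)
      · exfalso
        apply e.1
        have b2 := (pt x hx').mono (pt y hy') b.le
        have b3 := (pt y hy').mono (pt x hx') b.ge
        have b4 := (hex x hx').1.2.2.2.1
        have b5 := (hex y hy').1.2.1
        have b6 := e.2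
        rw [A.take_r (by omega), ← (hα x hx').1, A.word_pow, show α x = α y by omega]
        exact (hex y hy').1.touch_pre (hα y hy').1 (by omega)
      · exact Or.inr ((pt y hy').core (pt x hx') b))
  rw [Int.card_Ico] at hcore
  have hlo := (pt u hu).core ps.shift (by omega)
  have hsplit : (K.map fun t => l t - A.p (f t)).sum = (K.map fun t => A.p (f t)).sum +
      (K.map fun t => (α t + l t - A.p (f t) - (α t + A.p (f t))).toNat).sum := by
    rw [← List.sum_map_add]
    congr 1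
    apply List.map_congr_left
    intro t ht
    have b1 := (hex t (h1.subset ht)).1.1
    have b2 := (hex t (h1.subset ht)).1.2.1
    omega
  omega

end Sys

end Vale.Agent.P333
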