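import Vale.Agent.P333.Rows
import Vale.Agent.P333.Star

/-! The list data of the algorithm represent a system of rows. -/

namespace Vale.Agent.P333

open Finset Vale.Agent.Lib.H23

structure Rep (G : Ctx) (A : Sys (Fin G.1.length)) : Prop where
  r : ∀ i, A.r i = row G i
  s : ∀ i, (A.σ i).val = nx G i

theorem card_fin_filter (n : ℕ) (P : ℕ → Prop) [DecidablePred P] (Q : Fin n → Prop)
    [DecidablePred Q] (h : ∀ i : Fin n, Q i ↔ P i) :
    (univ.filter Q).card = ((range n).filter P).card := by
  rw [card_filter, card_filter, ← Fin.sum_univ_eq_sum_range (fun i => if P i then 1 else 0)]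
  exact sum_congr rfl fun i _ => by simp only [h i]

theorem length_filter_rg {β : Type} (l : List β) (P : ℕ → Bool) (Q : Fin l.length → Prop)
    [DecidablePred Q] (h : ∀ i : Fin l.length, Q i ↔ P i = true) :
    ((rg l).filter P).length = (univ.filter Q).card := by
  rw [card_fin_filter _ (fun i => P i = true) Q h, rg, ← List.toFinset_card_of_nodup
    (List.nodup_range.filter _), List.toFinset_filter, List.toFinset_range]

theorem exists_sys (S : List Str) : ∃ A : Sys (Fin (rows S).length),
    Rep (rows S, sgm (rows S)) A ∧ A.Key ∧ (∀ s ∈ S, s ≠ [] → ∃ i, s <+: A.r i) ∧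
    ∀ T : Str, (∀ s ∈ S, s <:+: T) → (rows S).length ≤ T.length := by
  classical
  obtain ⟨U, m, h1, h2, h3, h4, h5⟩ := rows_spec S
  obtain ⟨g1, g2, g3⟩ := sgm_spec h3 (hall h1 h2 h4)
  let f : Fin (rows S).length → Fin (rows S).length := fun i => ⟨_, (g3 i i.2).1⟩
  have hf : Function.Injective f := by
    intro i j h
    have h6 : (sgm (rows S)).getD i 0 = (sgm (rows S)).getD j 0 := congrArg Fin.val h
    rw [List.getD_eq_getElem _ _ (by omega), List.getD_eq_getElem _ _ (by omega)] at h6
    exact Fin.ext ((g2.getElem_inj_iff).1 h6)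
  have hrU : ∀ i : Fin (rows S).length, (rows S).getD i [] ∈ U := fun i => by
    rw [List.getD_eq_getElem _ _ i.2]
    exact h2 _ (List.getElem_mem _)
  let A : Sys (Fin (rows S).length) :=
    ⟨Equiv.ofBijective f (Finite.injective_iff_bijective.1 hf), fun i => (rows S).getD i [],
      fun i => ((h1.mem _).1 (hrU i)).1, fun i => (g3 i i.2).2⟩
  have hc : ∀ v ∈ U, m v = (univ.filter fun i => v <+: A.r i).card := fun v hv => by
    rw [h4 v hv, ← card_range_filter]
    exact (card_fin_filter _ (fun i => v <+: (rows S).getD i []) _ fun i => Iff.rfl).symm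
  refine ⟨A, ⟨fun _ => rfl, fun _ => rfl⟩, A.key U m (by convert hc) (fun i w b1 b2 => ?_) h1.rule,
    fun s hs b1 => ?_, h5⟩
  · obtain ⟨-, s, hs, b3⟩ := (h1.mem _).1 (hrU i)
    exact (h1.mem w).2 ⟨b1, s, hs, b2.isInfix.trans b3⟩
  · have b2 := h1.one s hs b1
    rw [hc s ((h1.mem s).2 ⟨b1, s, hs, List.infix_rfl⟩)] at b2
    obtain ⟨i, hi⟩ := card_pos.1 b2
    exact ⟨i, (mem_filter.1 hi).2⟩

namespace Rep

variable {G : Ctx} {A : Sys (Fin G.1.length)} (R : Rep G A)
include R

theorem itr_eq (l : List ℕ) (i : Fin G.1.length) : itr G l i = ((A.σ ^ l.length) i).val := by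
  unfold itr
  induction l generalizing i with
  | nil => simp
  | cons a l ih =>
    rw [List.foldl_cons, ← R.s, ih, List.length_cons, pow_succ, Equiv.Perm.mul_apply]

theorem itk_eq {k : ℕ} (hk : k ≤ G.1.length) (i : Fin G.1.length) :
    itk G k i = ((A.σ ^ k) i).val := by
  rw [itk, R.itr_eq, rg, List.length_take, List.length_range, min_eq_left hk]

theorem wd_eq (i : Fin G.1.length) (l : List ℕ) : wd G i l = A.word i l.length := by
  unfold wd Sys.word seg rg
  apply List.map_congr_left
  intro k hk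
  rw [R.itr_eq, List.length_take, min_eq_left (List.mem_range.1 hk).le, ← R.r, Sys.X, zero_add,
    zpow_natCast]

omit R in
theorem p_le (i : Fin G.1.length) : A.p i ≤ G.1.length := by
  classical
  rw [← A.card_same]
  exact (card_filter_le _ _).trans (by simp)

theorem same_iff (i j : Fin G.1.length) : same G i j = true ↔ A.Same i j := by
  simp only [same, List.any_eq_true, mem_rg, eqb_eq, decide_eq_true_eq]
  constructor
  · rintro ⟨k, h1, h2⟩
    rw [R.itk_eq h1.le] at h2
    exact ⟨k, by rw [zpow_natCast]; exact Fin.ext h2⟩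
  · intro h
    obtain ⟨k, h1, h2⟩ := h.nat
    have := p_le (A := A) i
    exact ⟨k, by omega, by rw [R.itk_eq (by omega), h2]⟩

theorem per_eq (i : Fin G.1.length) : per G i = A.p i := by
  classical
  rw [per, ← A.card_same]
  exact length_filter_rg _ _ _ fun j => (R.same_iff i j).symm

theorem ex_iff (i j : Fin G.1.length) (l : ℕ) : ex G (i, j, l) = true ↔ A.Ex i j l := by
  unfold ex Sys.Ex
  simp only [Bool.and_eq_true, leb_iff, ltb_eq, decide_eq_true_eq, eqL_iff, Bool.not_eq_true',
    eqb_eq, decide_eq_false_iff_not, R.per_eq, ← R.s, ← R.r, R.wd_eq, and_assoc]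
  refine and_congr Iff.rfl (and_congr Iff.rfl (and_congr Iff.rfl (and_congr_right fun h => ?_)))
  rw [List.length_take, min_eq_left h.le]

theorem leg_spec (j : Fin G.1.length) : run (A.r j) (leg G j) = A.r (A.σ j) ∧
    cost (leg G j) + (A.r j).length = 1 + (A.r (A.σ j)).length ∧
    ∀ l, (A.r j).length ≤ l + 1 → Vis (A.r j) (leg G j) ((A.r (A.σ j)).take l) := by
  have h1 := A.len_le j
  have h2 := A.len_pos j
  have h3 := List.prefix_iff_eq_take.1 (A.tl j)
  rw [List.length_tail] at h3
  have e : leg G j = downs [0] ++ ups ((A.r (A.σ j)).drop ((A.r j).length - 1)) := by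
    rw [leg, ← R.s, ← R.r, ← R.r]; rfl
  have e2 : run (A.r j) (downs [0]) = (A.r (A.σ j)).take ((A.r j).length - 1) := by
    rw [run_downs, ← h3]; simp
  rw [e]
  refine ⟨?_, ?_, fun l hl => Vis.right _ ?_⟩
  · rw [run_append, e2, run_ups, List.take_append_drop]
  · rw [cost_append, cost_downs, cost_ups, List.length_drop]; omega
  · obtain ⟨k, rfl⟩ : ∃ k, l = (A.r j).length - 1 + k := ⟨l - ((A.r j).length - 1), by omega⟩
    rw [e2, List.take_add]
    exact vis_ups _ _ (List.take_prefix _ _)

theorem legs_spec (i : Fin G.1.length) (n : ℕ) (hn : n ≤ G.1.length) :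
    run (A.r i) ((List.range n).flatMap fun k => leg G (itk G k i)) = A.r ((A.σ ^ n) i) ∧
    cost ((List.range n).flatMap fun k => leg G (itk G k i)) + (A.r i).length =
      n + (A.r ((A.σ ^ n) i)).length ∧
    ∀ k < n, ∀ l, (A.r ((A.σ ^ k) i)).length ≤ l + 1 →
      Vis (A.r i) ((List.range n).flatMap fun k => leg G (itk G k i))
        ((A.r (A.σ ((A.σ ^ k) i))).take l) := by
  induction n with
  | zero => simp [run_nil, cost_nil]
  | succ n ih =>
    obtain ⟨h1, h2, h3⟩ := ih (by omega)
    obtain ⟨g1, g2, g3⟩ := R.leg_spec ((A.σ ^ n) i)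
    rw [List.range_succ, List.flatMap_append, List.flatMap_singleton, R.itk_eq (by omega),
      pow_succ', Equiv.Perm.mul_apply]
    refine ⟨by rw [run_append, h1, g1], by rw [cost_append]; omega, fun k hk l hl => ?_⟩
    by_cases h : k < n
    · exact (h3 k h l hl).left _
    · obtain rfl : k = n := by omega
      refine Vis.right _ ?_
      rw [h1]
      exact g3 l hl

theorem curve_spec (i : Fin G.1.length) : run (curve G i).1 (curve G i).2 = (curve G i).1 ∧
    cost (curve G i).2 = A.p i ∧ ∀ y, A.Vert i y → Vis (curve G i).1 (curve G i).2 y := by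
  have h0 := p_le (A := A) i
  obtain ⟨h1, h2, h3⟩ := R.legs_spec i (A.p i) h0
  have e : (A.σ ^ A.p i) i = i := by rw [← zpow_natCast, A.pow_p]
  rw [e] at h1 h2
  simp only [curve, R.per_eq, rg, List.take_range, min_eq_left h0, ← R.r]
  refine ⟨h1, by omega, ?_⟩
  rintro y ⟨j, b1, l, b2, -, rfl⟩
  obtain ⟨k, hk, rfl⟩ := b1.nat
  exact h3 k hk l b2

theorem touch_of {M : Mv} {Y : Str} {i : Fin G.1.length} (h : A.Touch Y i)
    (hM : ∀ y, Vis [] (tri Y) y → Vis [] M y) : touch M (curve G i) = true := by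
  obtain ⟨y, h1, h2⟩ := h
  exact touch_iff.2 ⟨y, hM y (vis_tri h1), (R.curve_spec i).2.2 y h2⟩

theorem mem_words (i : Fin G.1.length) {l : ℕ} (h : l ≤ G.1.length) : A.word i l ∈ words G := by
  simp only [words, List.mem_flatMap, List.mem_map, mem_rg, mem_rg1]
  refine ⟨i, i.2, l, h, ?_⟩
  rw [R.wd_eq, rg, List.length_take, List.length_range, min_eq_left h]

end Rep

end Vale.Agent.P333
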