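import Vale.Agent.P333.PTb

/-! The whole algorithm runs in polynomial time. -/

namespace Vale.Agent.P333

open Vale.Agent.Lib.H23 Enc Polynomial

variable {α : Type} [Enc α]

@[fun_prop] theorem pt_row {G : α → Ctx} {i : α → ℕ} (hG : PT G) (hi : PT i) :
    PT (fun x => row (G x) (i x)) := by unfold row; fun_prop

@[fun_prop] theorem pt_nx {G : α → Ctx} {i : α → ℕ} (hG : PT G) (hi : PT i) :
    PT (fun x => nx (G x) (i x)) := by unfold nx; fun_prop

@[fun_prop] theorem pt_itr {G : α → Ctx} {l : α → List ℕ} {i : α → ℕ} (hG : PT G) (hl : PT l)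
    (hi : PT i) : PT (fun x => itr (G x) (l x) (i x)) := by
  refine pt_fold (f := fun x (j : ℕ) (_ : ℕ) => nx (G x) j) (fun p => (G p.1).2) (by fun_prop) hl hi
    (by fun_prop) fun x s a => ?_
  have h1 := sz_getD_le (G x).2 s 0
  have h2 := sz_pos s
  have h3 : sz (0 : ℕ) = 1 := rfl
  simp only [nx]
  omega

@[fun_prop] theorem pt_itk {G : α → Ctx} {k i : α → ℕ} (hG : PT G) (hk : PT k) (hi : PT i) :
    PT (fun x => itk (G x) (k x) (i x)) := by unfold itk; fun_prop

@[fun_prop] theorem pt_wd {G : α → Ctx} {i : α → ℕ} {l : α → List ℕ} (hG : PT G) (hi : PT i)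
    (hl : PT l) : PT (fun x => wd (G x) (i x) (l x)) := by unfold wd; fun_prop

@[fun_prop] theorem pt_same {G : α → Ctx} {i j : α → ℕ} (hG : PT G) (hi : PT i) (hj : PT j) :
    PT (fun x => same (G x) (i x) (j x)) := by unfold same; fun_prop

@[fun_prop] theorem pt_per {G : α → Ctx} {i : α → ℕ} (hG : PT G) (hi : PT i) :
    PT (fun x => per (G x) (i x)) := by unfold per; fun_prop

@[fun_prop] theorem pt_mv {y : α → Str} {a : α → Bool × ℕ} (hy : PT y) (ha : PT a) :
    PT (fun x => mv (y x) (a x)) := by unfold mv; fun_prop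

@[fun_prop] theorem pt_run {y : α → Str} {M : α → Mv} (hy : PT y) (hM : PT M) :
    PT (fun x => run (y x) (M x)) := by
  refine pt_fold (f := fun _ (s : Str) a => mv s a) (fun p => [p.2.2]) (by fun_prop) hM hy
    (by fun_prop) fun x s a => ?_
  have h1 := sz_append s [a.2]
  have h2 := sz_tail_le s
  unfold mv
  cases a.1 <;> simp only [cond_true, cond_false] <;> omega

@[fun_prop] theorem pt_ups {y : α → Str} (hy : PT y) : PT (fun x => ups (y x)) := by
  unfold ups; fun_prop

@[fun_prop] theorem pt_downs {y : α → Str} (hy : PT y) : PT (fun x => downs (y x)) := by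
  unfold downs; fun_prop

@[fun_prop] theorem pt_out {M : α → Mv} (hM : PT M) : PT (fun x => out (M x)) := by
  unfold out; fun_prop

@[fun_prop] theorem pt_cost {M : α → Mv} (hM : PT M) : PT (fun x => cost (M x)) := by
  unfold cost; fun_prop

@[fun_prop] theorem pt_meet {M : α → Mv} {Z : α → Str × Mv} (hM : PT M) (hZ : PT Z) :
    PT (fun x => meet (M x) (Z x)) := by unfold meet; fun_prop

@[fun_prop] theorem pt_touch {M : α → Mv} {Z : α → Str × Mv} (hM : PT M) (hZ : PT Z) :
    PT (fun x => touch (M x) (Z x)) := by unfold touch; fun_prop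

@[fun_prop] theorem pt_splice {M C : α → Mv} {q : α → ℕ × ℕ} (hM : PT M) (hC : PT C) (hq : PT q) :
    PT (fun x => splice (M x) (C x) (q x)) := by unfold splice; fun_prop

@[fun_prop] theorem pt_attach {M : α → Mv} {Z : α → Str × Mv} (hM : PT M) (hZ : PT Z) :
    PT (fun x => attach (M x) (Z x)) := by unfold attach; fun_prop

theorem sz_attach (M : Mv) (Z : Str × Mv) : sz (attach M Z) ≤ sz M + sz Z := by
  unfold attach
  cases touch M Z
  · simp
  · simp only [cond_true, splice]
    generalize (meet M Z).headD (0, 0) = q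
    have h1 := sz_append (M.take q.1) (Z.2.drop q.2 ++ (Z.2.take q.2 ++ M.drop q.1))
    have h2 := sz_append (Z.2.drop q.2) (Z.2.take q.2 ++ M.drop q.1)
    have h3 := sz_append (Z.2.take q.2) (M.drop q.1)
    have h4 := sz_take_drop M q.1
    have h5 := sz_take_drop Z.2 q.2
    have h6 := sz_prod Z
    omega

@[fun_prop] theorem pt_tri {y : α → Str} (hy : PT y) : PT (fun x => tri (y x)) := by
  unfold tri; fun_prop

@[fun_prop] theorem pt_leg {G : α → Ctx} {i : α → ℕ} (hG : PT G) (hi : PT i) :
    PT (fun x => leg (G x) (i x)) := by unfold leg; fun_prop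

@[fun_prop] theorem pt_curve {G : α → Ctx} {i : α → ℕ} (hG : PT G) (hi : PT i) :
    PT (fun x => curve (G x) (i x)) := by unfold curve; fun_prop

@[fun_prop] theorem pt_rnd {y : α → Str} {a b : α → ℕ} (hy : PT y) (ha : PT a) (hb : PT b) :
    PT (fun x => rnd (y x) (a x) (b x)) := by unfold rnd; fun_prop

@[fun_prop] theorem pt_round {G : α → Ctx} {i a b : α → ℕ} (hG : PT G) (hi : PT i) (ha : PT a)
    (hb : PT b) : PT (fun x => round (G x) (i x) (a x) (b x)) := by unfold round; fun_prop

@[fun_prop] theorem pt_ex {G : α → Ctx} {t : α → Tp} (hG : PT G) (ht : PT t) :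
    PT (fun x => ex (G x) (t x)) := by unfold ex; fun_prop

@[fun_prop] theorem pt_allT {G : α → Ctx} (hG : PT G) : PT (fun x => allT (G x)) := by
  unfold allT; fun_prop

@[fun_prop] theorem pt_trips {G : α → Ctx} (hG : PT G) : PT (fun x => trips (G x)) := by
  unfold trips; fun_prop

@[fun_prop] theorem pt_kids {G : α → Ctx} (hG : PT G) : PT (fun x => kids (G x)) := by
  refine pt_fold (f := fun x (acc : List Tp) (t : Tp) =>
    bif acc.any (fun s => same (G x) s.1 t.1 || same (G x) s.2.1 t.1) then acc else acc ++ [t])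
    (fun p => [p.2]) (by fun_prop) (by fun_prop) (by fun_prop) (by fun_prop) fun x s a => ?_
  have := sz_append s [a]
  cases s.any (fun s => same (G x) s.1 a.1 || same (G x) s.2.1 a.1) <;>
    simp only [cond_true, cond_false] <;> omega

@[fun_prop] theorem pt_grp {G : α → Ctx} {K : α → List Tp} {h : α → ℕ} (hG : PT G) (hK : PT K)
    (hh : PT h) : PT (fun x => grp (G x) (K x) (h x)) := by unfold grp; fun_prop

@[fun_prop] theorem pt_hosts {G : α → Ctx} {K : α → List Tp} (hG : PT G) (hK : PT K) :
    PT (fun x => hosts (G x) (K x)) := by unfold hosts; fun_prop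

@[fun_prop] theorem pt_arm {G : α → Ctx} {t : α → Tp} (hG : PT G) (ht : PT t) :
    PT (fun x => arm (G x) (t x)) := by unfold arm; fun_prop

@[fun_prop] theorem pt_star {G : α → Ctx} {L : α → List Tp} {y : α → Str} (hG : PT G) (hL : PT L)
    (hy : PT y) : PT (fun x => star (G x) (L x) (y x)) := by
  refine pt_fold (f := fun x (M : Mv) (t : Tp) =>
    bif touch M (curve (G x) t.1) then M else tri (arm (G x) t) ++ M)
    (fun p => tri (arm (G p.1) p.2)) (by fun_prop) hL (by fun_prop) (by fun_prop) fun x s a => ?_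
  have := sz_append (tri (arm (G x) a)) s
  cases touch s (curve (G x) a.1) <;> simp only [cond_true, cond_false] <;> omega

@[fun_prop] theorem pt_words {G : α → Ctx} (hG : PT G) : PT (fun x => words (G x)) := by
  unfold words; fun_prop

@[fun_prop] theorem pt_best {G : α → Ctx} {L : α → List Tp} {h : α → ℕ} (hG : PT G) (hL : PT L)
    (hh : PT h) : PT (fun x => best (G x) (L x) (h x)) := by unfold best; fun_prop

@[fun_prop] theorem pt_first {G : α → Ctx} (hG : PT G) : PT (fun x => first (G x)) := by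
  unfold first; fun_prop

@[fun_prop] theorem pt_isD {G : α → Ctx} {D : α → List ℕ} {j : α → ℕ} (hG : PT G) (hD : PT D)
    (hj : PT j) : PT (fun x => isD (G x) (D x) (j x)) := by unfold isD; fun_prop

@[fun_prop] theorem pt_cnt {G : α → Ctx} {D : α → List ℕ} (hG : PT G) (hD : PT D) :
    PT (fun x => cnt (G x) (D x)) := by unfold cnt; fun_prop

@[fun_prop] theorem pt_abs1 {G : α → Ctx} {s : α → Mv × List ℕ} {i : α → ℕ} (hG : PT G)
    (hs : PT s) (hi : PT i) : PT (fun x => abs1 (G x) (s x) (i x)) := by unfold abs1; fun_prop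

theorem sz_abs1 (G : Ctx) (s : Mv × List ℕ) (i : ℕ) :
    sz (abs1 G s i) ≤ sz s + sz (curve G i, i) := by
  unfold abs1
  have h1 := sz_attach s.1 (curve G i)
  have h2 := sz_prod s
  cases (!(isD G s.2 i) && touch s.1 (curve G i)) <;>
    simp only [cond_true, cond_false, sz_pair, sz_cons] <;> omega

@[fun_prop] theorem pt_absorb {G : α → Ctx} {s : α → Mv × List ℕ} (hG : PT G) (hs : PT s) :
    PT (fun x => absorb (G x) (s x)) :=
  pt_fold (f := fun x s i => abs1 (G x) s i) (fun p => (curve (G p.1) p.2, p.2)) (by fun_prop)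
    (by fun_prop) hs (by fun_prop) fun x s a => sz_abs1 (G x) s a

theorem sz_absorb (G : Ctx) (s : Mv × List ℕ) :
    sz (absorb G s) ≤ sz s + sz ((rg G.1).map fun i => (curve G i, i)) := by
  unfold absorb
  generalize rg G.1 = l
  induction l generalizing s with
  | nil => simp
  | cons i l ih =>
    have h1 := ih (abs1 G s i)
    have h2 := sz_abs1 G s i
    simp only [List.foldl_cons, List.map_cons, sz_cons]
    omega

@[fun_prop] theorem pt_cands {G : α → Ctx} (hG : PT G) : PT (fun x => cands (G x)) := by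
  unfold cands; fun_prop

@[fun_prop] theorem pt_step {G : α → Ctx} {s : α → Mv × List ℕ} (hG : PT G) (hs : PT s) :
    PT (fun x => step (G x) (s x)) := by unfold step; fun_prop

theorem sz_step (G : Ctx) (s : Mv × List ℕ) :
    sz (step G s) ≤ sz s + sz (cands G, (rg G.1).map fun i => (curve G i, i)) := by
  unfold step
  rcases headD_mem (((cands G).map fun Z => absorb G (attach s.1 Z, s.2)).filter
    fun t => ltb (cnt G s.2) (cnt G t.2) && leb (cost t.1) (2 * cnt G t.2)) s with h | h
  · rw [h]; omega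
  · obtain ⟨Z, hZ, e⟩ := List.mem_map.1 (List.mem_of_mem_filter h)
    rw [← e]
    have h1 := sz_absorb G (attach s.1 Z, s.2)
    have h2 := sz_attach s.1 Z
    have h3 := sz_lt_of_mem hZ
    have h4 := sz_prod s
    simp only [sz_pair] at h1 ⊢
    omega

@[fun_prop] theorem pt_final {G : α → Ctx} (hG : PT G) : PT (fun x => final (G x)) :=
  pt_fold (f := fun x s (_ : ℕ) => step (G x) s)
    (fun p => (cands (G p.1), (rg (G p.1).1).map fun i => (curve (G p.1) i, i))) (by fun_prop)
    (by fun_prop) (by fun_prop) (by fun_prop) fun x s _ => sz_step (G x) s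

theorem pt_scs : PT scs := by unfold scs; fun_prop

end Vale.Agent.P333
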