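import Vale.Agent.P333.Run
import Vale.Agent.P333.PTc
import Vale.Agent.P333.Code

/-! The Turing machine. -/

namespace Vale.Agent.P333

open Vale.Agent.Lib.H23 Enc Turing

theorem ser_list {α : Type} [Enc α] {f : α → List Bool} (h : ∀ a, ser (enc a) = f a)
    (l : List α) : ser (enc l) = bList f l := by
  induction l with
  | nil => rfl
  | cons a l ih => rw [enc_cons, ser, h, ih, bList]

theorem ser_bool (b : Bool) : ser (enc b) = bBool b := by cases b <;> rfl

theorem ser_nat (n : ℕ) : ser (enc n) = bNat n := ser_list ser_bool n.bits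

theorem two_approx : ∃ (f : List (List ℕ) → List ℕ)
    (M : TM2ComputableInPolyTime (bList (bList bNat)) (bList bNat) f),
    (∀ k, Finite (M.tm.Γ k)) ∧ ∀ S : List (List ℕ), (∀ s ∈ S, s <:+: f S) ∧
      ∀ T : List ℕ, (∀ s ∈ S, s <:+: T) → (f S).length ≤ 2 * T.length := by
  obtain ⟨c, P, h⟩ := pt_scs
  have key : ∀ S : List (List ℕ), TM2OutputsInTime (compile c)
      (List.map (id : Bool → Bool) (bList (bList bNat) S))
      (some (List.map (id : Bool → Bool) (bList bNat (scs S))))
      ((P + 1).eval (bList (bList bNat) S).length) := by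
    intro S
    have h1 := (h S).outputs
    rw [sz, Tr.size, ser_list (ser_list ser_nat), ser_list ser_nat] at h1
    rw [← List.map_id (bList (bList bNat) S), ← List.map_id (bList bNat (scs S)),
      List.length_map] at h1
    rw [Polynomial.eval_add, Polynomial.eval_one]
    exact Classical.choice h1
  exact ⟨scs, ⟨⟨compile c, Equiv.refl _, Equiv.refl _⟩, P + 1, key⟩,
    fun _ => (inferInstance : Finite Bool), scs_spec⟩

end Vale.Agent.P333
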