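import Vale.Agent.P333.Bridge

/-! The first phase: stars. -/

namespace Vale.Agent.P333

open Finset Vale.Agent.Lib.H23

theorem greedy_spec {τ : Type} (B : τ → τ → Bool) (l : List τ) : ∀ acc : List τ,
    acc.Pairwise (fun s t => B s t = false) → ∃ K : List τ, K.Sublist l ∧
      l.foldl (fun acc t => bif acc.any (fun s => B s t) then acc else acc ++ [t]) acc = acc ++ K ∧
      (acc ++ K).Pairwise (fun s t => B s t = false) ∧
      ∀ t ∈ l, t ∈ acc ++ K ∨ ∃ s ∈ acc ++ K, B s t = true := by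
  induction l with
  | nil => intro acc h; exact ⟨[], by simp, by simp, by simpa using h, by simp⟩
  | cons a l ih =>
    intro acc h
    rw [List.foldl_cons]
    cases e : acc.any (fun s => B s a)
    · rw [List.any_eq_false] at e
      obtain ⟨K, h1, h2, h3, h4⟩ := ih (acc ++ [a]) (by
        rw [List.pairwise_append]
        exact ⟨h, by simp, fun s hs t ht => by
          rw [List.mem_singleton.1 ht]; simpa using e s hs⟩)
      rw [List.append_assoc, List.singleton_append] at h3 h4
      refine ⟨a :: K, h1.cons_cons a, by rw [cond_false, h2]; simp, h3, fun t ht => ?_⟩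
      rcases List.mem_cons.1 ht with rfl | ht
      · simp
      · exact h4 t ht
    · obtain ⟨K, h1, h2, h3, h4⟩ := ih acc h
      refine ⟨K, h1.cons a, by rw [cond_true, h2], h3, fun t ht => ?_⟩
      rcases List.mem_cons.1 ht with rfl | ht
      · obtain ⟨s, hs, e⟩ := List.any_eq_true.1 e
        exact Or.inr ⟨s, by simp [hs], e⟩
      · exact h4 t ht

theorem lift_list {α β : Type} (g : α → β) (l : List β) (h : ∀ x ∈ l, ∃ y, g y = x) :
    ∃ l' : List α, l'.map g = l := by
  induction l with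
  | nil => exact ⟨[], rfl⟩
  | cons a l ih =>
    obtain ⟨y, rfl⟩ := h a (by simp)
    obtain ⟨l', rfl⟩ := ih fun x hx => h x (by simp [hx])
    exact ⟨y :: l', rfl⟩

theorem touch_mono {M N : Mv} {Z : Str × Mv} (h : ∀ y, Vis [] M y → Vis [] N y)
    (ht : touch M Z = true) : touch N Z = true := by
  obtain ⟨y, h1, h2⟩ := touch_iff.1 ht
  exact touch_iff.2 ⟨y, h y h1, h2⟩

theorem flatMap_closed {τ : Type} (b : τ → Mv) (H : List τ) (h : ∀ x ∈ H, run [] (b x) = []) :
    (∀ x ∈ H, ∀ y, Vis [] (b x) y → Vis [] (H.flatMap b) y) ∧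
    cost (H.flatMap b) = (H.map fun x => cost (b x)).sum := by
  induction H with
  | nil => simp [cost_nil]
  | cons a H ih =>
    obtain ⟨h1, h2⟩ := ih fun x hx => h x (by simp [hx])
    rw [List.flatMap_cons]
    refine ⟨fun x hx y hy => ?_, by rw [cost_append, h2]; simp⟩
    rcases List.mem_cons.1 hx with rfl | hx
    · exact hy.left _
    · refine Vis.right _ ?_
      rw [h a (by simp)]
      exact h1 x hx y hy

theorem sum_groups {τ κ : Type} (φ : τ → ℕ) (P : κ → τ → Bool) (H : List κ)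
    (h : H.Pairwise fun a b => ∀ t, P a t = true → P b t = false) : ∀ K : List τ,
    (H.map fun a => ((K.filter (P a)).map φ).sum).sum ≤ (K.map φ).sum := by
  induction H with
  | nil => simp
  | cons a H ih =>
    intro K
    rw [List.pairwise_cons] at h
    have h1 := ih h.2 (K.filter fun t => !(P a t))
    have h2 : (H.map fun b => (((K.filter fun t => !(P a t)).filter (P b)).map φ).sum) =
        H.map fun b => ((K.filter (P b)).map φ).sum := by
      apply List.map_congr_left
      intro b hb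
      rw [List.filter_filter]
      congr 2
      apply List.filter_congr
      intro t _
      cases e : P a t
      · simp
      · simp [h.1 b hb t e]
    have h3 := ((List.filter_append_perm (P a) K).map φ).sum_eq
    rw [List.map_append, List.sum_append] at h3
    rw [h2] at h1
    simp only [List.map_cons, List.sum_cons]
    omega

theorem Sys.sum_p_le {ι : Type} [Fintype ι] (A : Sys ι) (L : List ι)
    (h : L.Pairwise fun i j => ¬ A.Same i j) (s : Finset ι) (hs : ∀ i ∈ L, ∀ j, A.Same i j → j ∈ s) :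
    (L.map A.p).sum ≤ s.card := by
  classical
  rw [← A.card_list L h]
  apply card_le_card
  intro j hj
  obtain ⟨i, h1, h2⟩ := (mem_filter.1 hj).2
  exact hs i h1 j h2

def emb {n : ℕ} (t : Fin n × Fin n × ℕ) : Tp := (t.1, t.2.1, t.2.2)

namespace Rep

variable {G : Ctx} {A : Sys (Fin G.1.length)} (R : Rep G A)
include R

theorem mem_trips (t : Tp) : t ∈ trips G ↔ ∃ s, emb s = t ∧ A.Ex s.1 s.2.1 s.2.2 := by
  simp only [trips, allT, List.mem_flatMap, List.mem_filter, List.mem_map, mem_rg, mem_rg1,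
    Bool.and_eq_true, eqb_eq, decide_eq_true_eq]
  constructor
  · rintro ⟨q, -, ⟨i, hi, j, hj, l, -, rfl⟩, -, h⟩
    exact ⟨(⟨i, hi⟩, ⟨j, hj⟩, l), rfl, (R.ex_iff ⟨i, hi⟩ ⟨j, hj⟩ l).1 h⟩
  · rintro ⟨⟨i, j, l⟩, rfl, h⟩
    refine ⟨_, ?_, ⟨i, i.2, j, j.2, l, ?_, rfl⟩, rfl, (R.ex_iff i j l).2 h⟩
    · rw [emb, R.per_eq]; exact p_le i
    · rw [← R.s, ← R.r]; exact h.2.2.2.1

omit R in
theorem sorted_trips : (trips G).Pairwise fun s t => per G s.1 ≤ per G t.1 := by
  rw [trips, List.pairwise_flatMap]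
  refine ⟨fun q _ => List.pairwise_of_forall_mem_list fun a ha b hb => ?_,
    List.pairwise_lt_range.imp fun {a b} hab x hx y hy => ?_⟩
  · simp only [List.mem_filter, Bool.and_eq_true, eqb_eq, decide_eq_true_eq] at ha hb
    omega
  · simp only [List.mem_filter, Bool.and_eq_true, eqb_eq, decide_eq_true_eq] at hx hy
    omega

theorem kids_spec : ∃ K : List (Fin G.1.length × Fin G.1.length × ℕ), kids G = K.map emb ∧
    (∀ t ∈ K, A.Ex t.1 t.2.1 t.2.2) ∧ K.Pairwise (fun s t => A.p s.1 ≤ A.p t.1) ∧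
    K.Pairwise (fun s t => ¬ A.Same s.1 t.1) ∧ (∀ s ∈ K, ∀ t ∈ K, ¬ A.Same s.2.1 t.1) ∧
    ∀ i j l, A.Ex i j l → ∃ s ∈ K, A.Same s.1 i ∨ A.Same s.2.1 i := by
  obtain ⟨K, h1, h2, h3, h4⟩ := greedy_spec
    (fun s t : Tp => same G s.1 t.1 || same G s.2.1 t.1) (trips G) [] (by simp)
  rw [List.nil_append] at h2 h3 h4
  obtain ⟨K, rfl⟩ := lift_list emb K fun x hx => by
    obtain ⟨s, hs, -⟩ := (R.mem_trips x).1 (h1.subset hx)
    exact ⟨s, hs⟩
  have h5 : ∀ t ∈ K, A.Ex t.1 t.2.1 t.2.2 := by
    intro t ht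
    obtain ⟨s, hs, e⟩ := (R.mem_trips _).1 (h1.subset (List.mem_map_of_mem ht))
    obtain ⟨a, b, c⟩ := s
    obtain ⟨a', b', c'⟩ := t
    simp only [emb, Prod.mk.injEq, Fin.val_inj] at hs
    obtain ⟨rfl, rfl, rfl⟩ := hs
    exact e
  have h6 : K.Pairwise (fun s t => A.p s.1 ≤ A.p t.1) := by
    have := sorted_trips.sublist h1
    rw [List.pairwise_map] at this
    exact this.imp fun {a b} h => by simpa only [emb, R.per_eq] using h
  rw [List.pairwise_map] at h3
  have h7 : K.Pairwise (fun s t => ¬ A.Same s.1 t.1 ∧ ¬ A.Same s.2.1 t.1) :=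
    h3.imp fun {a b} h => by
      simp only [emb, Bool.or_eq_false_iff] at h
      rw [← R.same_iff, ← R.same_iff, h.1, h.2]
      simp
  refine ⟨K, h2, h5, h6, h7.imp fun h => h.1, ?_, fun i j l e => ?_⟩
  · refine List.Pairwise.forall_of_forall_of_flip (fun x hx e => ?_) (h7.imp fun h => h.2)
      (h6.imp_of_mem fun {a b} _ hb h e => ?_)
    · have := e.p_eq
      have := (h5 x hx).p_lt
      omega
    · have := e.p_eq
      have := (h5 b hb).p_lt
      omega
  · rcases h4 _ ((R.mem_trips _).2 ⟨(i, j, l), rfl, e⟩) with h | ⟨s, hs, h⟩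
    · obtain ⟨s, hs, e⟩ := List.mem_map.1 h
      refine ⟨s, hs, Or.inl ?_⟩
      have : s.1 = i := Fin.ext (congrArg Prod.fst e)
      rw [this]
      exact Sys.Same.refl A i
    · obtain ⟨u, hu, rfl⟩ := List.mem_map.1 hs
      simp only [emb, Bool.or_eq_true, R.same_iff] at h
      exact ⟨u, hu, h⟩

theorem arm_eq (t : Fin G.1.length × Fin G.1.length × ℕ) :
    arm G (emb t) = (A.r (A.σ t.2.1)).take (t.2.2 - A.p t.1) := by
  simp only [arm, emb, R.per_eq, ← R.s, ← R.r]

theorem star_aux (L : List (Fin G.1.length × Fin G.1.length × ℕ))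
    (hL : ∀ t ∈ L, A.Ex t.1 t.2.1 t.2.2) : ∀ M0 M : Mv, run [] M0 = [] →
    M = (L.map emb).foldl (fun M t => bif touch M (curve G t.1) then M
      else tri (arm G t) ++ M) M0 →
    run [] M = [] ∧ (∀ y, Vis [] M0 y → Vis [] M y) ∧ (∀ t ∈ L, touch M (curve G t.1) = true) ∧
    ∃ K : List (Fin G.1.length × Fin G.1.length × ℕ), K.Sublist L ∧ (∀ t ∈ K, touch M0 (curve G t.1) = false) ∧
      K.Pairwise (fun s t => ¬ A.Touch ((A.r (A.σ s.2.1)).take (s.2.2 - A.p s.1)) t.1) ∧
      cost M = cost M0 + (K.map fun t => t.2.2 - A.p t.1).sum := by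
  induction L with
  | nil =>
    rintro M0 M h rfl
    exact ⟨h, fun _ h => h, by simp, [], by simp⟩
  | cons a L ih =>
    intro M0 M h e
    rw [List.map_cons, List.foldl_cons] at e
    have ih' := ih fun t ht => hL t (by simp [ht])
    cases ht : touch M0 (curve G (emb a).1)
    · rw [ht, cond_false, R.arm_eq] at e
      have ea := hL a (by simp)
      have e1 := ea.2.1
      have e2 := ea.2.2.2.1
      have hv : ∀ y, Vis [] M0 y →
          Vis [] (tri ((A.r (A.σ a.2.1)).take (a.2.2 - A.p a.1)) ++ M0) y := fun y hy =>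
        Vis.right _ (by rw [run_tri]; exact hy)
      obtain ⟨h1, h2, h3, K, h4, h5, h6, h7⟩ := ih' _ M (by rw [run_append, run_tri, h]) e
      refine ⟨h1, fun y hy => h2 y (hv y hy), fun t ht => ?_, a :: K, h4.cons_cons a,
        fun t ht' => ?_, List.pairwise_cons.2 ⟨fun t ht' b => ?_, h6⟩, ?_⟩
      · rcases List.mem_cons.1 ht with rfl | ht
        · refine R.touch_of (Y := (A.r (A.σ t.2.1)).take (t.2.2 - A.p t.1)) ?_
            fun y hy => h2 y (hy.left _)
          rw [A.take_r (by omega)]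
          exact ea.touch_pre (α := 0) (by simp) (by omega)
        · exact h3 t ht
      · rcases List.mem_cons.1 ht' with rfl | ht'
        · exact ht
        · by_contra b
          have := touch_mono hv (Bool.eq_true_of_not_eq_false b)
          rw [h5 t ht'] at this
          exact absurd this (by simp)
      · have := R.touch_of b fun y hy => hy.left M0
        rw [h5 t ht'] at this
        exact absurd this (by simp)
      · rw [h7, cost_append, cost_tri, List.length_take, min_eq_left (by omega)]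
        simp only [List.map_cons, List.sum_cons]
        omega
    · rw [ht, cond_true] at e
      obtain ⟨h1, h2, h3, K, h4, h5, h6, h7⟩ := ih' _ M h e
      refine ⟨h1, h2, fun t ht' => ?_, K, h4.cons a, h5, h6, h7⟩
      rcases List.mem_cons.1 ht' with rfl | ht'
      · exact touch_mono h2 ht
      · exact h3 t ht'

theorem best_spec (h : Fin G.1.length) (L : List (Fin G.1.length × Fin G.1.length × ℕ))
    (h0 : L ≠ []) (hL : ∀ t ∈ L, A.Ex t.1 t.2.1 t.2.2 ∧ A.Same h t.2.1)
    (hp : L.Pairwise fun s t => A.p s.1 ≤ A.p t.1)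
    (hW : A.p h + (L.map fun t => A.p t.1).sum ≤ G.1.length) :
    run [] (best G (L.map emb) h) = [] ∧ touch (best G (L.map emb) h) (curve G h) = true ∧
    (∀ t ∈ L, touch (best G (L.map emb) h) (curve G t.1) = true) ∧
    cost (best G (L.map emb) h) ≤ A.p h + (L.map fun t => A.p t.1).sum := by
  obtain ⟨i, n, h1, h2⟩ := Sys.star_ex h L (fun t => t.1) (fun t => t.2.1) (fun t => t.2.2) h0 hL hp
  have hst := fun y => R.star_aux L (fun t ht => (hL t ht).1) (tri y) (star G (L.map emb) y)
    (run_tri y) rfl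
  have e : per G h + ((L.map emb).map fun t => per G t.1).sum =
      A.p h + (L.map fun t => A.p t.1).sum := by
    simp only [List.map_map, Function.comp_def, emb, R.per_eq]
  have hmem : ∀ M, M ∈ ((((words G).filter fun y => touch (tri y) (curve G h)).map
      fun y => star G (L.map emb) y).filter fun M => leb (cost M)
        (per G h + ((L.map emb).map fun t => per G t.1).sum)) ↔
      (∃ y, (y ∈ words G ∧ touch (tri y) (curve G h) = true) ∧ star G (L.map emb) y = M) ∧
        cost M ≤ A.p h + (L.map fun t => A.p t.1).sum := by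
    intro M
    rw [e]
    simp only [List.mem_filter, List.mem_map, leb_iff]
  have h3 := h2 [] (by simp) (by simp) (by simp)
  simp only [List.map_nil, List.sum_nil] at h3
  obtain ⟨-, -, -, K, b1, b2, b3, b4⟩ := hst (A.word i n)
  have h4 := h2 K b1 (fun t ht b => by
    have := R.touch_of b fun y hy => hy
    rw [b2 t ht] at this
    exact absurd this (by simp)) b3
  rw [cost_tri, Sys.word, seg_length, ← Sys.word] at b4
  obtain ⟨⟨y, ⟨-, c1⟩, c2⟩, c3⟩ := (hmem _).1 (headD_mem' (List.ne_nil_of_mem ((hmem _).2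
    ⟨⟨_, ⟨R.mem_words i (show n ≤ G.1.length by omega), R.touch_of h1 fun y hy => hy⟩, rfl⟩,
      by omega⟩)) [])
  rw [← best] at c2 c3
  obtain ⟨d1, d2, d3, -⟩ := hst y
  rw [c2] at d1 d2 d3
  exact ⟨d1, touch_mono d2 c1, d3, c3⟩

omit R in
theorem grp_eq (K : List (Fin G.1.length × Fin G.1.length × ℕ)) (h : ℕ) :
    grp G (K.map emb) h = (K.filter fun t => same G h t.2.1).map emb := by
  rw [grp, List.filter_map]; rfl

theorem hosts_spec (K : List (Fin G.1.length × Fin G.1.length × ℕ)) :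
    ∃ H : List (Fin G.1.length), H.map Fin.val = hosts G (K.map emb) ∧
      (∀ h ∈ H, ∃ t ∈ K, A.Same h t.2.1) ∧ H.Pairwise (fun i j => ¬ A.Same i j) ∧
      ∀ t ∈ K, ∃ h ∈ H, A.Same h t.2.1 := by
  classical
  have hH : ∀ h, h ∈ hosts G (K.map emb) ↔ h < G.1.length ∧ (∃ t ∈ K, same G h t.2.1 = true) ∧
      ∀ j < h, same G h j = false := by
    intro h
    simp only [hosts, grp_eq, List.mem_filter, mem_rg, Bool.and_eq_true, Bool.not_eq_true',
      List.isEmpty_eq_false_iff, List.all_eq_true, Bool.and_eq_false_imp, ltb_eq,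
      decide_eq_true_eq, ne_eq, List.map_eq_nil_iff, List.filter_eq_nil_iff]
    refine and_congr_right fun b => and_congr (by push Not; rfl)
      ⟨fun c j hj => c j (by omega) hj, fun c j _ hj => c j hj⟩
  obtain ⟨H, eH⟩ := lift_list (Fin.val : Fin G.1.length → ℕ) (hosts G (K.map emb))
    fun x hx => ⟨⟨x, ((hH x).1 hx).1⟩, rfl⟩
  have hH' : ∀ h : Fin G.1.length, h ∈ H ↔ (∃ t ∈ K, A.Same h t.2.1) ∧
      ∀ j < h, ¬ A.Same h j := by
    intro h
    rw [← List.mem_map_of_injective Fin.val_injective, eH, hH]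
    simp only [R.same_iff, h.2, true_and]
    refine and_congr Iff.rfl ⟨fun c j hj => by rw [← R.same_iff, c j hj]; simp, fun c j hj => ?_⟩
    have := c ⟨j, by omega⟩ hj
    rw [← R.same_iff] at this
    simpa using this
  refine ⟨H, eH, fun h hh => ((hH' h).1 hh).1, ?_, fun t ht => ?_⟩
  · have b1 : (hosts G (K.map emb)).Pairwise (· < ·) := List.pairwise_lt_range.filter _
    rw [← eH, List.pairwise_map] at b1
    exact b1.imp_of_mem fun {a b} _ hb c d => ((hH' b).1 hb).2 a c d.symm
  · obtain ⟨h, b1, b2⟩ := exists_min_image (univ.filter fun j => A.Same j t.2.1) id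
      ⟨t.2.1, by simp [Sys.Same.refl]⟩
    simp only [mem_filter, mem_univ, true_and, id] at b1 b2
    exact ⟨h, (hH' h).2 ⟨⟨t, ht, b1⟩, fun j hj c => absurd (b2 j (c.symm.trans b1)) (not_le.2 hj)⟩,
      b1⟩

theorem first_spec : ∃ L : List (Fin G.1.length), L.Pairwise (fun i j => ¬ A.Same i j) ∧
    cost (first G) ≤ (L.map A.p).sum ∧ (∀ i ∈ L, touch (first G) (curve G i) = true) ∧
    ∀ i j l, A.Ex i j l → ∃ k ∈ L, A.Same k i := by
  obtain ⟨K, e, h1, h2, h3, h4, h5⟩ := R.kids_spec
  obtain ⟨H, eH, hH, hHp, hhost⟩ := R.hosts_spec K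
  have hcross : ∀ h ∈ H, ∀ t ∈ K, ¬ A.Same h t.1 := by
    intro h hh t ht c
    obtain ⟨s, hs, d⟩ := hH h hh
    exact h4 s hs t ht (d.symm.trans c)
  obtain ⟨b, hb0⟩ : ∃ b : Fin G.1.length → Mv,
      ∀ h, b h = best G ((K.filter fun t => same G h t.2.1).map emb) h := ⟨_, fun _ => rfl⟩
  have hb : ∀ h ∈ H, run [] (b h) = [] ∧ touch (b h) (curve G h) = true ∧
      (∀ t ∈ K.filter (fun t => same G h t.2.1), touch (b h) (curve G t.1) = true) ∧
      cost (b h) ≤ A.p h + ((K.filter fun t => same G h t.2.1).map fun t => A.p t.1).sum := by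
    intro h hh
    rw [hb0]
    refine R.best_spec h _ ?_ (fun t ht => ⟨h1 t (List.mem_filter.1 ht).1,
      (R.same_iff _ _).1 (List.mem_filter.1 ht).2⟩) (h2.filter _) ?_
    · obtain ⟨s, hs, d⟩ := hH h hh
      exact List.ne_nil_of_mem (List.mem_filter.2 ⟨hs, (R.same_iff _ _).2 d⟩)
    · have b1 := A.sum_p_le (h :: (K.filter fun t => same G h t.2.1).map Prod.fst) (by
        rw [List.pairwise_cons, List.pairwise_map]
        refine ⟨fun x hx => ?_, h3.filter _⟩
        obtain ⟨t, ht, rfl⟩ := List.mem_map.1 hx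
        exact hcross h hh t (List.mem_filter.1 ht).1) univ fun _ _ _ _ => mem_univ _
      rw [List.map_cons, List.sum_cons, List.map_map, card_univ, Fintype.card_fin] at b1
      exact b1
  have ef : first G = H.flatMap b := by
    rw [first, e, ← eH, List.flatMap_map]
    simp only [grp_eq, ← hb0]
  obtain ⟨f1, f2⟩ := flatMap_closed b H fun h hh => (hb h hh).1
  rw [← ef] at f1 f2
  refine ⟨H ++ K.map Prod.fst, ?_, ?_, fun i hi => ?_, fun i j l c => ?_⟩
  · rw [List.pairwise_append, List.pairwise_map]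
    refine ⟨hHp, h3, fun a ha b hb => ?_⟩
    obtain ⟨t, ht, rfl⟩ := List.mem_map.1 hb
    exact hcross a ha t ht
  · have b1 := sum_groups (fun t : Fin G.1.length × Fin G.1.length × ℕ => A.p t.1)
      (fun (h : Fin G.1.length) t => same G h t.2.1) H (hHp.imp fun {a b} c t d => by
        by_contra d'
        exact c (((R.same_iff _ _).1 d).trans
          ((R.same_iff _ _).1 (Bool.eq_true_of_not_eq_false d')).symm)) K
    have b2 := List.sum_le_sum fun h hh => (hb h hh).2.2.2
    rw [List.sum_map_add] at b2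
    rw [f2, List.map_append, List.sum_append, List.map_map]
    exact b2.trans (Nat.add_le_add_left b1 _)
  · rcases List.mem_append.1 hi with hi | hi
    · exact touch_mono (f1 i hi) (hb i hi).2.1
    · obtain ⟨t, ht, rfl⟩ := List.mem_map.1 hi
      obtain ⟨h, b1, b2⟩ := hhost t ht
      exact touch_mono (f1 h b1)
        ((hb h b1).2.2.1 t (List.mem_filter.2 ⟨ht, (R.same_iff _ _).2 b2⟩))
  · obtain ⟨s, hs, d | d⟩ := h5 i j l c
    · exact ⟨s.1, List.mem_append_right _ (List.mem_map_of_mem hs), d⟩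
    · obtain ⟨h, b1, b2⟩ := hhost s hs
      exact ⟨h, List.mem_append_left _ b1, b2.trans d⟩

end Rep

end Vale.Agent.P333
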