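import Vale.Agent.P333.Defs

/-! Walks: lists of moves (append a letter, or delete the first letter). -/

namespace Vale.Agent.P333

open Vale.Agent.Lib.H23

theorem eqL_iff {a b : Str} : eqL a b = true ↔ a = b := by simp [eqL]

theorem pre_iff {a b : Str} : pre a b = true ↔ a <+: b := by
  rw [pre, eqL_iff, List.prefix_iff_eq_take]

theorem suf_iff {a b : Str} : suf a b = true ↔ a <:+ b := by
  rw [suf, eqL_iff, List.suffix_iff_eq_drop]

theorem leb_iff {a b : ℕ} : leb a b = true ↔ a ≤ b := by simp [leb]

theorem mem_rg {β : Type} {l : List β} {k : ℕ} : k ∈ rg l ↔ k < l.length := by simp [rg]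

theorem mem_rg1 {β : Type} {l : List β} {k : ℕ} : k ∈ rg1 l ↔ k ≤ l.length := by
  simp [rg1]

theorem headD_mem' {δ : Type} {l : List δ} (h : l ≠ []) (d : δ) : l.headD d ∈ l := by
  cases l with
  | nil => exact absurd rfl h
  | cons a l => simp

/-- `y` is visited by the walk `M` started at `x` -/
def Vis (x : Str) (M : Mv) (y : Str) : Prop := ∃ A, A <+: M ∧ run x A = y

theorem run_nil (x : Str) : run x [] = x := rfl

theorem run_cons (x : Str) (a : Bool × ℕ) (M : Mv) : run x (a :: M) = run (mv x a) M := rfl

theorem run_append (x : Str) (A B : Mv) : run x (A ++ B) = run (run x A) B := by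
  simp [run]

theorem run_ups (x y : Str) : run x (ups y) = x ++ y := by
  induction y generalizing x with
  | nil => simp [ups, run]
  | cons c y ih =>
    have := ih (x ++ [c])
    simpa [ups, run, mv] using this

theorem run_downs (x : Str) (l : List ℕ) : run x (downs l) = x.drop l.length := by
  induction l generalizing x with
  | nil => simp [downs, run]
  | cons c l ih =>
    have := ih x.tail
    simpa [downs, run, mv] using this

theorem out_append (A B : Mv) : out (A ++ B) = out A ++ out B := by simp [out]

theorem cost_append (A B : Mv) : cost (A ++ B) = cost A + cost B := by simp [cost, out_append]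

theorem cost_nil : cost [] = 0 := rfl

theorem cost_ups (y : Str) : cost (ups y) = y.length := by
  simp [cost, out, ups, List.filter_map, Function.comp_def]

theorem cost_downs (l : List ℕ) : cost (downs l) = 0 := by
  simp [cost, out, downs]

theorem Vis.start (x : Str) (M : Mv) : Vis x M x := ⟨[], List.nil_prefix, rfl⟩

theorem Vis.stop (x : Str) (M : Mv) : Vis x M (run x M) := ⟨M, List.prefix_rfl, rfl⟩

theorem Vis.left {x y : Str} {A : Mv} (B : Mv) (h : Vis x A y) : Vis x (A ++ B) y := by
  obtain ⟨C, h1, h2⟩ := h
  exact ⟨C, h1.trans (List.prefix_append A B), h2⟩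

theorem Vis.right {x y : Str} (A : Mv) {B : Mv} (h : Vis (run x A) B y) : Vis x (A ++ B) y := by
  obtain ⟨C, h1, h2⟩ := h
  exact ⟨A ++ C, (List.prefix_append_right_inj A).2 h1, by rw [run_append, h2]⟩

theorem Vis.split {x y : Str} {A B : Mv} (h : Vis x (A ++ B) y) :
    Vis x A y ∨ Vis (run x A) B y := by
  obtain ⟨C, h1, h2⟩ := h
  rcases List.prefix_or_prefix_of_prefix h1 (List.prefix_append A B) with h3 | ⟨D, rfl⟩
  · exact Or.inl ⟨C, h3, h2⟩
  · exact Or.inr ⟨D, (List.prefix_append_right_inj A).1 h1, by rw [← run_append, h2]⟩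

theorem vis_ups (x y : Str) {z : Str} (h : z <+: y) : Vis x (ups y) (x ++ z) :=
  ⟨ups z, h.map _, run_ups x z⟩

theorem vis_downs (x : Str) (l : List ℕ) {k : ℕ} (h : k ≤ l.length) :
    Vis x (downs l) (x.drop k) :=
  ⟨downs (l.take k), (List.take_prefix k l).map _, by rw [run_downs, List.length_take, min_eq_left h]⟩

theorem run_suffix (x : Str) (M : Mv) : run x M <:+ x ++ out M := by
  induction M generalizing x with
  | nil => simp [run, out]
  | cons a M ih =>
    obtain ⟨b, c⟩ := a
    rw [run_cons]
    cases b
    · refine (ih _).trans ?_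
      have : out ((false, c) :: M) = out M := by simp [out]
      rw [this]
      obtain ⟨t, ht⟩ := List.tail_suffix x
      exact ⟨t, by simp only [mv, cond_false]; rw [← List.append_assoc, ht]⟩
    · have : out ((true, c) :: M) = c :: out M := by simp [out]
      rw [this]
      simpa [mv] using ih (x ++ [c])

theorem Vis.inf {M : Mv} {y : Str} (h : Vis [] M y) : y <:+: out M := by
  obtain ⟨A, ⟨B, rfl⟩, rfl⟩ := h
  rw [out_append]
  have := run_suffix [] A
  rw [List.nil_append] at this
  exact this.isInfix.trans (List.prefix_append _ _).isInfix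

theorem mem_meet {M : Mv} {Z : Str × Mv} {q : ℕ × ℕ} : q ∈ meet M Z ↔
    q.1 ≤ M.length ∧ q.2 ≤ Z.2.length ∧ run [] (M.take q.1) = run Z.1 (Z.2.take q.2) := by
  obtain ⟨a, b⟩ := q
  simp [meet, mem_rg1, eqL_iff, and_assoc]

theorem touch_iff {M : Mv} {Z : Str × Mv} :
    touch M Z = true ↔ ∃ y, Vis [] M y ∧ Vis Z.1 Z.2 y := by
  rw [touch, Bool.not_eq_true', List.isEmpty_eq_false_iff]
  constructor
  · intro h
    obtain ⟨q, hq⟩ := List.exists_mem_of_ne_nil _ h
    rw [mem_meet] at hq
    exact ⟨_, ⟨_, List.take_prefix _ _, rfl⟩, ⟨_, List.take_prefix _ _, hq.2.2.symm⟩⟩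
  · rintro ⟨y, ⟨A, h1, h2⟩, ⟨B, h3, h4⟩⟩
    refine List.ne_nil_of_mem (a := (A.length, B.length)) (mem_meet.2 ⟨h1.length_le, h3.length_le, ?_⟩)
    simp only
    rw [← List.prefix_iff_eq_take.1 h1, ← List.prefix_iff_eq_take.1 h3, h2, h4]

theorem attach_spec (M : Mv) (Z : Str × Mv) (hZ : run Z.1 Z.2 = Z.1) :
    (∀ y, Vis [] M y → Vis [] (attach M Z) y) ∧
    (touch M Z = true → ∀ y, Vis Z.1 Z.2 y → Vis [] (attach M Z) y) ∧
    cost (attach M Z) ≤ cost M + cost Z.2 := by
  unfold attach
  cases ht : touch M Z
  · exact ⟨fun _ h => h, fun h => absurd h (by simp), by simp⟩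
  · simp only [cond_true]
    have hne : meet M Z ≠ [] := by
      rw [touch, Bool.not_eq_true', List.isEmpty_eq_false_iff] at ht; exact ht
    have hq := (mem_meet.1 (headD_mem' hne (0, 0))).2.2
    generalize (meet M Z).headD (0, 0) = q at hq
    unfold splice
    have e1 : run (run [] (M.take q.1)) (Z.2.drop q.2) = Z.1 := by
      rw [hq, ← run_append, List.take_append_drop, hZ]
    refine ⟨fun y h => ?_, fun _ y h => ?_, ?_⟩
    · rw [← List.take_append_drop q.1 M] at h
      rcases h.split with h | h
      · exact h.left _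
      · refine Vis.right _ (Vis.right _ (Vis.right _ ?_))
        rw [e1, ← hq]; exact h
    · rw [← List.take_append_drop q.2 Z.2] at h
      rcases h.split with h | h
      · refine Vis.right _ (Vis.right _ (Vis.left _ ?_))
        rw [e1]; exact h
      · refine Vis.right _ (Vis.left _ ?_)
        rw [hq]; exact h
    · have h1 := cost_append (M.take q.1) (M.drop q.1)
      have h2 := cost_append (Z.2.take q.2) (Z.2.drop q.2)
      rw [List.take_append_drop] at h1 h2
      simp only [cost_append]
      omega

theorem run_tri (y : Str) : run [] (tri y) = [] := by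
  rw [tri, run_append, run_ups, run_downs]; simp

theorem cost_tri (y : Str) : cost (tri y) = y.length := by
  rw [tri, cost_append, cost_ups, cost_downs, add_zero]

theorem vis_tri {y z : Str} (h : z <+: y ∨ z <:+ y) : Vis [] (tri y) z := by
  rcases h with h | h
  · exact Vis.left _ (by simpa using vis_ups [] y h)
  · refine Vis.right _ ?_
    rw [run_ups, List.nil_append, List.suffix_iff_eq_drop.1 h]
    exact vis_downs y y (by omega)

theorem cost_rnd (y : Str) (a b : ℕ) : cost (rnd y a b) = y.length := by
  simp only [rnd, cost_append, cost_ups, cost_downs, List.length_take, List.length_drop]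
  omega

theorem vis_rnd (g y : Str) {a : ℕ} (b : ℕ) (ha : a ≤ y.length) :
    Vis g (rnd y a b) (g.drop a ++ y.take b) := by
  refine Vis.right _ (Vis.left _ ?_)
  rw [run_downs, List.length_take, min_eq_left ha]
  exact vis_ups _ _ List.prefix_rfl

theorem run_rnd {g y : Str} {a : ℕ} (b : ℕ) (ha : a ≤ y.length) (hy : y.length ≤ g.length)
    (h : g.drop y.length ++ y = g) : run g (rnd y a b) = g := by
  simp only [rnd, run_append, run_ups, run_downs, List.length_take, List.length_drop,
    min_eq_left ha]
  rw [List.drop_append_of_le_length (by simp; omega), List.drop_drop, List.append_assoc,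
    List.take_append_drop, show a + (y.length - a) = y.length by omega, h]

end Vale.Agent.P333
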