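import Vale.Agent.P333.Ops
import Vale.Agent.P333.Walk

/-! The periodic rule for the counts yields a row that is not closed. -/

namespace Vale.Agent.P333

open Finset Vale.Agent.Lib.H23

/-- periodic extension of the first `p` letters of `v` -/
def om (v : Str) (p : ℕ) (n : ℤ) : ℕ := v.getD (n % p).toNat 0

def CP (u v w : Str) (e : ℕ) : Prop :=
  1 ≤ e ∧ u.length + e < w.length ∧ w.length ≤ v.length + e ∧
    (∀ k : ℕ, 0 < k → k + 1 < w.length → w.getD k 0 = om v (v.length - u.length) (k - e)) ∧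
    w.getD 0 0 ≠ om v (v.length - u.length) (-e) ∧
    w.getD (w.length - 1) 0 ≠ om v (v.length - u.length) ((w.length - 1 : ℕ) - e)

theorem cyc_eq (v : Str) {p : ℕ} (hp : 0 < p) (e k : ℕ) : cyc v p e k = om v p (k - e) := by
  unfold cyc om
  congr 1
  obtain ⟨q, rfl⟩ : ∃ q, p = q + 1 := ⟨p - 1, by omega⟩
  rw [Nat.add_sub_cancel]
  have : ((k : ℤ) - e) % ((q + 1 : ℕ) : ℤ) = ((k + q * e : ℕ) : ℤ) % ((q + 1 : ℕ) : ℤ) := by
    rw [show ((k + q * e : ℕ) : ℤ) = k - e + ((q + 1 : ℕ) : ℤ) * e by push_cast; ring,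
      Int.add_mul_emod_self_left]
  rw [this, ← Int.natCast_mod, Int.toNat_natCast]

theorem cp_iff {u v : Str} (h : u.length < v.length) (w : Str) (e : ℕ) :
    cp u v w e = true ↔ CP u v w e := by
  unfold cp CP
  simp only [Bool.and_eq_true, ltb_eq, decide_eq_true_eq, leb_iff, List.all_eq_true, mem_rg,
    cyc_eq v (show 0 < v.length - u.length by omega), eqb_eq, and_assoc]
  refine and_congr Iff.rfl (and_congr_right fun h2 => and_congr Iff.rfl ⟨fun h3 => ⟨?_, ?_, ?_⟩,
    fun h3 k hk => ?_⟩)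
  · intro k h4 h5
    have := h3 k (by omega)
    simpa [h4.ne', h5.ne] using this
  · have := h3 0 (by omega)
    simpa using this
  · have := h3 (w.length - 1) (by omega)
    rw [Nat.sub_add_cancel (by omega)] at this
    simpa using this
  · by_cases h4 : k = 0
    · subst h4
      simpa using h3.2.1
    · by_cases h5 : k + 1 = w.length
      · have := h3.2.2
        rw [← h5, Nat.add_sub_cancel] at this
        simpa [h5] using this
      · have := h3.1 k (by omega) (by omega)
        simpa [h4, h5] using this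

def longer (U : Finset Str) (u : Str) : Finset Str := U.filter fun w => u.length < w.length

def CL1 (U : Finset Str) (m : Str → ℕ) (u v : Str) : ℕ :=
  ∑ w ∈ longer U u, ∑ e ∈ range w.length, bif cp u v w e then m w else 0

def CL0 (U : Finset Str) (m : Str → ℕ) (u v : Str) : ℕ :=
  ∑ w ∈ longer U u, ∑ e ∈ range w.length,
    bif cp u v w e then m w * ((e - 1) / (v.length - u.length)) else 0

/-- two-sided words that agree strictly between `a` and `c` and differ at both -/
def Dev (f g : ℤ → ℕ) (a c : ℤ) : Prop :=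
  (∀ n, a < n → n < c → f n = g n) ∧ f a ≠ g a ∧ f c ≠ g c

theorem Dev.unique {f g : ℤ → ℕ} {a c b d : ℤ} (h1 : Dev f g a c) (h2 : Dev f g b d)
    (ha : a < 0) (hb : b < 0) (hc : 0 ≤ c) (hd : 0 ≤ d) : a = b ∧ c = d := by
  constructor
  · rcases lt_trichotomy a b with h | h | h
    · exact absurd (h1.1 b h (by omega)) h2.2.1
    · exact h
    · exact absurd (h2.1 a h (by omega)) h1.2.1
  · rcases lt_trichotomy c d with h | h | h
    · exact absurd (h2.1 c (by omega) h) h1.2.2
    · exact h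
    · exact absurd (h1.1 d (by omega) h) h2.2.2

theorem CP_iff_dev {u v w : Str} {e : ℕ} {f : ℤ → ℕ}
    (h : ∀ k : ℕ, k < w.length → w.getD k 0 = f (k - e)) :
    CP u v w e ↔ 1 ≤ e ∧ u.length + e < w.length ∧ w.length ≤ v.length + e ∧
      Dev f (om v (v.length - u.length)) (-e) ((w.length - 1 : ℕ) - e) := by
  unfold CP Dev
  refine and_congr Iff.rfl (and_congr_right fun h2 => and_congr Iff.rfl ?_)
  rw [h 0 (by omega), h (w.length - 1) (by omega), Nat.cast_zero, zero_sub]
  refine and_congr ⟨fun h3 n h4 h5 => ?_, fun h3 k h4 h5 => ?_⟩ Iff.rfl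
  · obtain ⟨k, hk⟩ : ∃ k : ℕ, n = k - e := ⟨(n + e).toNat, by omega⟩
    rw [hk, ← h k (by omega), h3 k (by omega) (by omega)]
  · rw [h k (by omega), h3 _ (by omega) (by omega)]

theorem window {p c d B k l : ℕ} (h1 : B ≤ c + p) (h2 : c < B) (h3 : B ≤ d + p) (h4 : d < B)
    (e : c + p * k = d + p * l) : k = l := by
  rcases lt_trichotomy k l with h | h | h
  · have := Nat.mul_le_mul_left p (Nat.succ_le_of_lt h)
    rw [Nat.mul_succ] at this
    omega
  · exact h
  · have := Nat.mul_le_mul_left p (Nat.succ_le_of_lt h)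
    rw [Nat.mul_succ] at this
    omega

namespace Sys

variable {ι : Type} [Fintype ι] (A : Sys ι)

theorem om_eq {i : ι} (h : A.p i ≤ (A.r i).length) : om (A.r i) (A.p i) = A.X i := by
  funext n
  have hp : (0 : ℤ) < A.p i := by exact_mod_cast A.p_pos i
  have h1 := Int.emod_nonneg n hp.ne'
  have h2 := Int.emod_lt_of_pos n hp
  rw [om, A.r_getD (by omega), Int.toNat_of_nonneg h1, ← A.X_per_mul i _ (n / A.p i),
    Int.emod_add_mul_ediv]

omit [Fintype ι] in
theorem getD_pre {w : Str} {a : ι} (h : w <+: A.r a) (e : ℕ) (k : ℕ) (hk : k < w.length) :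
    w.getD k 0 = A.X ((A.σ ^ (e : ℤ)) a) (k - e) := by
  have h1 := h.length_le
  obtain ⟨t, ht⟩ := h
  rw [A.X_pow, add_sub_cancel, ← A.r_getD (by omega), ← ht, List.getD_append _ _ _ _ hk]

theorem dev_iff {i : ι} (hB : A.p i < (A.r i).length) {u : Str}
    (hul : u.length + A.p i = (A.r i).length) {w : Str} {e : ℕ} {a : ι} (h : w <+: A.r a) :
    cp u (A.r i) w e = true ↔ 1 ≤ e ∧ u.length + e < w.length ∧ w.length ≤ (A.r i).length + e ∧
      Dev (A.X ((A.σ ^ (e : ℤ)) a)) (A.X i) (-e) ((w.length - 1 : ℕ) - e) := by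
  have hp := A.p_pos i
  rw [cp_iff (by omega), CP_iff_dev (A.getD_pre h e),
    show (A.r i).length - u.length = A.p i by omega, A.om_eq hB.le]

omit [Fintype ι] in
theorem dev_shift {i a : ι} {e c : ℕ} (k : ℕ)
    (h : Dev (A.X ((A.σ ^ (e : ℤ)) a)) (A.X i) (-e) c) :
    Dev (A.X ((A.σ ^ ((e : ℤ) - (A.p i * k : ℕ))) a)) (A.X i) ((A.p i * k : ℕ) - e)
      (c + A.p i * k : ℕ) := by
  have hX : ∀ n : ℤ, A.X ((A.σ ^ ((e : ℤ) - (A.p i * k : ℕ))) a) n =
      A.X ((A.σ ^ (e : ℤ)) a) (n - (A.p i * k : ℕ)) := by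
    intro n
    rw [A.X_pow, A.X_pow]; congr 1; ring
  have hY : ∀ n : ℤ, A.X i n = A.X i (n - (A.p i * k : ℕ)) := by
    intro n
    rw [← A.X_per_mul i (n - _) k]; congr 1; push_cast; ring
  refine ⟨fun n b1 b2 => ?_, ?_, ?_⟩
  · rw [hX, hY n]
    exact h.1 _ (by omega) (by omega)
  · rw [hX, hY, show ((A.p i * k : ℕ) : ℤ) - e - (A.p i * k : ℕ) = -e by ring]
    exact h.2.1
  · rw [hX, hY, show ((c + A.p i * k : ℕ) : ℤ) - (A.p i * k : ℕ) = c by omega]
    exact h.2.2

open Classical in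
theorem key0 (U : Finset Str) (m : Str → ℕ)
    (hc : ∀ v ∈ U, m v = (univ.filter fun i => v <+: A.r i).card) {i : ι}
    (hB : A.p i < (A.r i).length) {u : Str} (hul : u.length + A.p i = (A.r i).length) :
    CL0 U m u (A.r i) < (univ.filter fun j => A.r i <+: A.r j).card := by
  have hp := A.p_pos i
  let Q := ((longer U u).sigma fun w => (range w.length).filter
    fun e => cp u (A.r i) w e = true).sigma fun x =>
      (univ.filter fun a => x.1 <+: A.r a) ×ˢ range ((x.2 - 1) / A.p i)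
  have hQ : Q.card = CL0 U m u (A.r i) := by
    rw [card_sigma, sum_sigma, CL0]
    refine sum_congr rfl fun w hw => ?_
    rw [sum_filter]
    refine sum_congr rfl fun e _ => ?_
    rw [card_product, card_range, ← hc w (mem_filter.1 hw).1,
      show (A.r i).length - u.length = A.p i by omega]
    cases cp u (A.r i) w e <;> simp
  have hmem : ∀ x ∈ Q, x.1.1 <+: A.r x.2.1 ∧ A.p i * (x.2.2 + 1) + 1 ≤ x.1.2 ∧
      u.length + x.1.2 < x.1.1.length ∧ x.1.1.length ≤ (A.r i).length + x.1.2 ∧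
      Dev (A.X ((A.σ ^ ((x.1.2 : ℤ) - (A.p i * (x.2.2 + 1) : ℕ))) x.2.1)) (A.X i)
        ((A.p i * (x.2.2 + 1) : ℕ) - x.1.2)
        ((x.1.1.length - 1 - x.1.2 + A.p i * (x.2.2 + 1) : ℕ)) := by
    rintro ⟨⟨w, e⟩, a, k⟩ hx
    simp only [Q, mem_sigma, mem_filter, mem_product, mem_univ, true_and, mem_range] at hx
    obtain ⟨⟨-, -, h1⟩, h2, h3⟩ := hx
    obtain ⟨h4, h5, h6, h7⟩ := (A.dev_iff hB hul h2).1 h1
    have h8 : (k + 1) * A.p i ≤ e - 1 := (Nat.le_div_iff_mul_le hp).1 h3
    rw [mul_comm] at h8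
    rw [← Nat.cast_sub (by omega)] at h7
    exact ⟨h2, by simp only; omega, h5, h6, A.dev_shift (k + 1) h7⟩
  have hle : Q.card ≤ ((univ.filter fun j => A.r i <+: A.r j).erase i).card := by
    refine card_le_card_of_injOn
      (fun x => (A.σ ^ ((x.1.2 : ℤ) - (A.p i * (x.2.2 + 1) : ℕ))) x.2.1) (fun x hx => ?_) ?_
    · obtain ⟨h1, h2, h3, h4, h5⟩ := hmem x hx
      have h6 : A.p i * 1 ≤ A.p i * (x.2.2 + 1) := Nat.mul_le_mul_left _ (by omega)
      rw [mem_coe, mem_erase, mem_filter]
      refine ⟨fun h => ?_, mem_univ _,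
        A.pre_of_agree ?_ fun n hn => h5.1 n (by omega) (by omega)⟩
      · simp only at h
        rw [h] at h5
        exact h5.2.2 rfl
      · have h7 := A.hi_mono x.2.1
          (show 0 ≤ (x.1.2 : ℤ) - (A.p i * (x.2.2 + 1) : ℕ) by omega)
        rw [A.hi_zero, hi] at h7
        have := h1.length_le
        beta_reduce
        omega
    · rintro ⟨⟨w, e⟩, a, k⟩ hx ⟨⟨w', e'⟩, a', k'⟩ hy h
      obtain ⟨h1, h2, h3, h4, h5⟩ := hmem _ hx
      obtain ⟨g1, g2, g3, g4, g5⟩ := hmem _ hy
      simp only at h h1 h2 h3 h4 h5 g1 g2 g3 g4 g5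
      rw [h] at h5
      obtain ⟨b1, b2⟩ := h5.unique g5 (by omega) (by omega) (by omega) (by omega)
      have b3 : k + 1 = k' + 1 := window (B := (A.r i).length) (c := w.length - 1 - e)
        (d := w'.length - 1 - e') (p := A.p i) (by omega) (by omega) (by omega) (by omega)
        (by exact_mod_cast b2)
      obtain rfl : k = k' := by omega
      obtain rfl : e = e' := by omega
      obtain rfl : a = a' := (A.σ ^ _).injective h
      obtain rfl : w = w' := by
        rw [List.prefix_iff_eq_take.1 h1, List.prefix_iff_eq_take.1 g1,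
          show w.length = w'.length by omega]
      rfl
  rw [card_erase_of_mem (by simp), hQ] at hle
  have : 0 < (univ.filter fun j => A.r i <+: A.r j).card := card_pos.2 ⟨i, by simp⟩
  omega

open Classical in
theorem key (U : Finset Str) (m : Str → ℕ)
    (hc : ∀ v ∈ U, m v = (univ.filter fun i => v <+: A.r i).card)
    (hU : ∀ i w, w ≠ [] → w <+: A.r i → w ∈ U)
    (hr : ∀ u ∈ U, ∀ v ∈ U, u.length < v.length → u <+: v → u <:+ v → CL0 U m u v < m v →
      m v + CL1 U m u v + 1 ≤ m u) : A.Key := by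
  intro i hB
  have hp := A.p_pos i
  obtain ⟨u, hu⟩ : ∃ u, u = (A.r i).take ((A.r i).length - A.p i) := ⟨_, rfl⟩
  have hul : u.length + A.p i = (A.r i).length := by rw [hu, List.length_take]; omega
  have huv : u <+: A.r i := by rw [hu]; exact List.take_prefix _ _
  have hvU := hU i _ (A.ne i) List.prefix_rfl
  have huU := hU i u (List.ne_nil_of_length_pos (by omega)) huv
  have h0 := A.key0 U m hc hB hul
  rw [← hc _ hvU] at h0
  have hsuf : u <:+ A.r i := by
    rw [hu, A.take_r (by omega), word, ← A.seg_per]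
    conv_rhs => rw [A.r_eq i]
    exact seg_suf _ (by omega) (by omega)
  have h1 := hr u huU _ hvU (by omega) huv hsuf h0
  by_contra hcon
  have hsub : (univ.filter fun j => u <+: A.r j) ⊆ (univ.filter fun j => A.r i <+: A.r j) ∪
      (longer U u).biUnion fun w => (range w.length).biUnion fun e =>
        bif cp u (A.r i) w e then (univ.filter fun a => w <+: A.r a).image (A.σ ^ (e : ℤ))
        else ∅ := by
    intro j hj
    simp only [mem_filter, mem_univ, true_and, mem_union, mem_biUnion, mem_range] at hj ⊢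
    by_cases hv : A.r i <+: A.r j
    · exact Or.inl hv
    right
    by_contra hn
    refine hcon ⟨j, hv, by rw [← hu]; exact hj, fun e c b1 b2 b3 b4 b5 b6 => ?_⟩
    by_contra b7
    apply hn
    rw [hi] at b7
    obtain ⟨w, hw0⟩ : ∃ w, w = (A.r ((A.σ ^ (-(e : ℤ))) j)).take (e + c + 1) := ⟨_, rfl⟩
    have hw : w.length = e + c + 1 := by
      rw [hw0, List.length_take]; omega
    have hw1 : w <+: A.r ((A.σ ^ (-(e : ℤ))) j) := by rw [hw0]; exact List.take_prefix _ _
    have hj' : (A.σ ^ (e : ℤ)) ((A.σ ^ (-(e : ℤ))) j) = j := by rw [A.pow_pow]; simp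
    have hcp : cp u (A.r i) w e = true := by
      rw [A.dev_iff hB hul hw1, hw, hj', show ((e + c + 1 - 1 : ℕ) : ℤ) - e = c by omega]
      exact ⟨b1, by omega, by omega, b4, b5, b6⟩
    refine ⟨w, mem_filter.2 ⟨hU _ _ (List.ne_nil_of_length_pos (by omega)) hw1, by omega⟩, e,
      by omega, ?_⟩
    rw [hcp, cond_true]
    exact mem_image.2 ⟨_, by simpa using hw1, hj'⟩
  have h3 : ((longer U u).biUnion fun w => (range w.length).biUnion fun e =>
      bif cp u (A.r i) w e then (univ.filter fun a => w <+: A.r a).image (A.σ ^ (e : ℤ))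
      else ∅).card ≤ CL1 U m u (A.r i) := by
    refine card_biUnion_le.trans (sum_le_sum fun w hw => ?_)
    refine card_biUnion_le.trans (sum_le_sum fun e _ => ?_)
    rw [hc w (mem_filter.1 hw).1]
    cases cp u (A.r i) w e
    · simp
    · exact card_image_le
  have h2 := (card_le_card hsub).trans (card_union_le _ _)
  rw [← hc _ huU, ← hc _ hvU] at h2
  omega

end Sys

end Vale.Agent.P333
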