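import Vale.Agent.P333.Word

/-! An affordable operation exists as long as some curve is pending. -/

namespace Vale.Agent.P333

open Finset

namespace Sys

variable {ι : Type} (A : Sys ι)

theorem round_seg (i : ι) {a b : ℕ} (h : A.p i ≤ (A.r i).length) (ha : a ≤ A.p i)
    (hb : b ≤ A.p i) : (A.r i).drop a ++ ((A.r i).drop ((A.r i).length - A.p i)).take b =
      seg (A.X i) a ((A.r i).length - a + b) := by
  have e := A.r_eq i
  generalize (A.r i).length = B at h e ⊢
  rw [e, word, seg_drop _ _ (by omega), seg_drop _ _ (by omega), seg_take _ _ (by omega),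
    ← seg_append, zero_add]
  congr 1
  apply seg_ext
  intro k _
  rw [← A.X_per i]
  congr 1
  omega

theorem seg_per (i : ι) (a : ℤ) (l : ℕ) : seg (A.X i) (a + A.p i) l = seg (A.X i) a l :=
  seg_ext fun k _ => by rw [← A.X_per i (a + k)]; congr 1; ring

theorem pre_of_agree {i j : ι} (h1 : (A.r i).length ≤ (A.r j).length)
    (h2 : ∀ n : ℕ, n < (A.r i).length → A.X j n = A.X i n) : A.r i <+: A.r j := by
  rw [List.prefix_iff_eq_take, A.take_r h1]
  conv_lhs => rw [A.r_eq i]
  exact seg_ext fun k hk => by rw [zero_add, h2 k hk]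

/-- one step of the periodicity lemma -/
theorem fw {i j : ι} {a c : ℤ} (h : ∀ n, a ≤ n → n < c → A.X j n = A.X i n)
    (hc : a + A.p i + A.p j ≤ c) (hi : 0 < A.p i) (hj : 0 < A.p j) : A.X j c = A.X i c := by
  have e1 := A.X_per j (c - A.p j)
  have e2 := A.X_per i (c - A.p j - A.p i)
  have e3 := A.X_per j (c - A.p j - A.p i)
  have e4 := A.X_per i (c - A.p i)
  rw [sub_add_cancel] at e1 e2 e4
  rw [show c - A.p j - A.p i + A.p j = c - A.p i by ring] at e3
  rw [e1, h _ (by omega) (by omega), e2, ← h _ (by omega) (by omega), ← e3,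
    h _ (by omega) (by omega), e4]

variable [Fintype ι]

theorem exists_min (P : ι → Prop) (hne : ∃ i, P i) : ∃ i, P i ∧ ∀ j, P j →
    (∀ c : ℕ, (∀ n : ℕ, n < c → A.X j n = A.X i n) → A.X i c ≤ A.X j c) ∧
    ((∀ n : ℕ, A.X j n = A.X i n) → (A.r i).length ≤ (A.r j).length) := by
  classical
  obtain ⟨i, hi, h⟩ := exists_min_image (univ.filter P)
    (fun i => toLex (toLex (fun n : ℕ => A.X i n), (A.r i).length))
    (by obtain ⟨i, hi⟩ := hne; exact ⟨i, by simpa using hi⟩)
  refine ⟨i, by simpa using hi, fun j hj => ?_⟩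
  have h1 := not_lt.2 (h j (by simpa using hj))
  rw [Prod.Lex.toLex_lt_toLex, not_or] at h1
  refine ⟨fun c hc => ?_, fun hc => ?_⟩
  · by_contra h2
    exact h1.1 ⟨c, hc, not_le.1 h2⟩
  · by_contra h2
    exact h1.2 ⟨congrArg toLex (funext hc), not_le.1 h2⟩

open Classical in
/-- a triangle that is paid for by the pending curves it meets -/
def TriOp (P : ι → Prop) : Prop :=
  ∃ i l, (∃ j, P j ∧ A.Touch (A.word i l) j) ∧
    l ≤ (univ.filter fun j => P j ∧ A.Touch (A.word i l) j).card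

/-- a round of a pending curve that meets a finished curve -/
def RndOp (P : ι → Prop) : Prop :=
  ∃ i a b, P i ∧ A.p i ≤ (A.r i).length ∧ a ≤ A.p i ∧ b ≤ A.p i ∧ ∃ j, ¬ P j ∧
    A.Vert j ((A.r i).drop a ++ ((A.r i).drop ((A.r i).length - A.p i)).take b)

variable {A}

theorem triOp_of {P : ι → Prop} (hP : ∀ i j, P i → A.Same i j → P j) (i : ι) (l : ℕ) (L : List ι)
    (h0 : L ≠ []) (h1 : L.Pairwise fun i j => ¬ A.Same i j)
    (h2 : ∀ j ∈ L, P j ∧ A.Touch (A.word i l) j) (h3 : l ≤ (L.map A.p).sum) : A.TriOp P := by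
  classical
  obtain ⟨j, hj⟩ := List.exists_mem_of_ne_nil _ h0
  refine ⟨i, l, ⟨j, h2 j hj⟩, h3.trans ?_⟩
  rw [← A.card_list L h1]
  apply card_le_card
  intro k hk
  simp only [mem_filter, mem_univ, true_and] at hk ⊢
  obtain ⟨m, hm, e⟩ := hk
  exact ⟨hP m k (h2 m hm).1 e, (h2 m hm).2.same e.symm⟩

theorem triOp_one {P : ι → Prop} (hP : ∀ i j, P i → A.Same i j → P j) {i j : ι} {l : ℕ}
    (h1 : P j) (h2 : A.Vert j (A.word i l)) (h3 : l ≤ A.p j) : A.TriOp P :=
  triOp_of hP i l [j] (by simp) (by simp)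
    (by simpa using ⟨h1, _, Or.inl List.prefix_rfl, h2⟩) (by simpa using h3)

theorem triOp_row {P : ι → Prop} (hP : ∀ i j, P i → A.Same i j → P j) {j : ι}
    (h1 : P j) (h3 : (A.r j).length ≤ A.p j) : A.TriOp P :=
  triOp_one hP (i := j) h1 (by rw [← A.r_eq]; exact A.vert_self j) h3

theorem ops (hK : A.Key) (P : ι → Prop) (hP : ∀ i j, P i → A.Same i j → P j) (hne : ∃ i, P i)
    (hd : ∀ i j l, P i → ¬ A.Ex i j l) : A.TriOp P ∨ A.RndOp P := by
  classical
  obtain ⟨i, hi, hmin⟩ := A.exists_min P hne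
  by_cases hB : (A.r i).length ≤ A.p i
  · exact Or.inl (triOp_row hP hi hB)
  obtain ⟨j, hv, hu, hcl⟩ := hK i (by omega)
  have hp := A.p_pos i
  have hq := A.p_pos j
  have hlen : (A.r i).length - A.p i ≤ (A.r j).length := by
    have := hu.length_le
    rw [List.length_take] at this
    omega
  have hag : ∀ n : ℕ, n + A.p i < (A.r i).length → A.X j n = A.X i n := by
    intro n hn
    rw [List.prefix_iff_eq_take, List.length_take, min_eq_left (by omega), A.take_r (by omega),
      A.take_r hlen] at hu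
    simpa using (seg_inj hu (k := n) (by omega)).symm
  have hL : P j → ∀ c : ℕ, (∀ n : ℕ, n < c → A.X j n = A.X i n) → A.X j c ≠ A.X i c →
      c < A.p j := by
    intro hj c h1 h2
    by_contra h3
    obtain ⟨d, rfl⟩ := Nat.exists_eq_add_of_le (not_lt.1 h3)
    have h4 := (hmin j hj).1 _ h1
    have h5 := (hmin _ (hP i _ hi (A.same_pow i (A.p j)))).1 d fun n hn => by
      rw [A.X_pow, ← Nat.cast_add, ← h1 _ (by omega), ← h1 _ (by omega), Nat.cast_add, add_comm,
        A.X_per]
    rw [A.X_pow, ← Nat.cast_add] at h5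
    have h6 := h1 d (by omega)
    have h7 := A.X_per j d
    rw [add_comm, ← Nat.cast_add] at h7
    omega
  by_cases hA : ∀ n : ℕ, n < (A.r j).length → A.X j n = A.X i n
  · have h1 : (A.r j).length < (A.r i).length := by
      by_contra h1
      exact hv (A.pre_of_agree (by omega) fun n hn => hA n (by omega))
    by_cases hj : P j
    · have h2 : ∃ c : ℕ, A.X j c ≠ A.X i c := by
        by_contra h2
        push Not at h2
        have := (hmin j hj).2 h2
        omega
      have h3 := hL hj (Nat.find h2) (fun n hn => by simpa using Nat.find_min h2 hn)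
        (Nat.find_spec h2)
      have h4 : (A.r j).length ≤ Nat.find h2 := by
        by_contra h4
        exact Nat.find_spec h2 (hA _ (by omega))
      exact Or.inl (triOp_row hP hj (by omega))
    · refine Or.inr ⟨i, A.p i, (A.r j).length - ((A.r i).length - A.p i), hi, by omega, le_rfl,
        by omega, j, hj, ?_⟩
      rw [A.round_seg i (by omega) le_rfl (by omega), ← zero_add (A.p i : ℤ), A.seg_per,
        Nat.add_sub_cancel' hlen, ← seg_ext (f := A.X j) (a := 0) fun k hk => by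
          rw [zero_add, hA k hk], ← word, ← A.r_eq]
      exact A.vert_self j
  have h2 : ∃ c : ℕ, A.X j c ≠ A.X i c := by
    push Not at hA
    obtain ⟨n, _, h⟩ := hA
    exact ⟨n, h⟩
  obtain ⟨c, hc1, hc2⟩ : ∃ c : ℕ, A.X j c ≠ A.X i c ∧ ∀ n : ℕ, n < c → A.X j n = A.X i n :=
    ⟨Nat.find h2, Nat.find_spec h2, fun n hn => by simpa using Nat.find_min h2 hn⟩
  have hc3 : c < (A.r j).length := by
    by_contra h
    exact hA fun n hn => hc2 n (by omega)
  have hc4 : (A.r i).length ≤ c + A.p i := by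
    by_contra h
    exact hc1 (hag c (by omega))
  have hc5 : c < (A.r i).length := by
    by_contra h
    exact hv (A.pre_of_agree (by omega) fun n hn => hc2 n (by omega))
  have h3 : ∃ e : ℕ, A.X j (-(e + 1 : ℕ)) ≠ A.X i (-(e + 1 : ℕ)) := by
    by_contra h3
    push Not at h3
    apply hc1
    have h4 : 1 * (1 * (c + 1)) ≤ A.p i * (A.p j * (c + 1)) :=
      Nat.mul_le_mul hp (Nat.mul_le_mul hq le_rfl)
    have h5 := h3 (A.p i * (A.p j * (c + 1)) - c - 1)
    rw [← A.X_per_mul j c (-(A.p i * (c + 1))), ← A.X_per_mul i c (-(A.p j * (c + 1)))]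
    have e1 : (c : ℤ) + A.p j * -(A.p i * (c + 1)) =
        -((A.p i * (A.p j * (c + 1)) - c - 1 + 1 : ℕ) : ℤ) := by
      rw [Nat.sub_add_cancel (by omega), Nat.cast_sub (by omega)]; push_cast; ring
    have e2 : (c : ℤ) + A.p i * -(A.p j * (c + 1)) =
        -((A.p i * (A.p j * (c + 1)) - c - 1 + 1 : ℕ) : ℤ) := by
      rw [← e1]; ring
    rw [e1, e2, h5]
  obtain ⟨e, he1, he2⟩ : ∃ e : ℕ, A.X j (-(e + 1 : ℕ)) ≠ A.X i (-(e + 1 : ℕ)) ∧
      ∀ n : ℕ, n < e → A.X j (-(n + 1 : ℕ)) = A.X i (-(n + 1 : ℕ)) :=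
    ⟨Nat.find h3, Nat.find_spec h3, fun n hn => by simpa using Nat.find_min h3 hn⟩
  have hagr : ∀ n : ℤ, -((e + 1 : ℕ) : ℤ) < n → n < c → A.X j n = A.X i n := by
    intro n h4 h5
    by_cases h6 : 0 ≤ n
    · have := hc2 n.toNat (by omega)
      rwa [Int.toNat_of_nonneg h6] at this
    · have := he2 (-n - 1).toNat (by omega)
      rwa [show (-(((-n - 1).toNat + 1 : ℕ) : ℤ)) = n by omega] at this
  have hcl' := hcl (e + 1) c (by omega) hc4 hc5 hagr he1 hc1
  obtain ⟨b, -, hb1, hb2⟩ := A.col j c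
  have hb3 : b ≤ 0 := by
    by_contra h
    have := A.hi_mono j (show 0 ≤ b - 1 by omega)
    rw [A.hi_zero] at this
    omega
  have hb4 : -((e + 1 : ℕ) : ℤ) < b := by
    by_contra h
    have := A.hi_mono j (not_lt.1 h)
    omega
  obtain ⟨t, rfl⟩ : ∃ t : ℕ, b = -t := ⟨(-b).toNat, by omega⟩
  have hvert : A.Vert j (seg (A.X j) (-t) (t + c)) :=
    A.vert_seg j _ _ (by push_cast; omega) (by push_cast; omega)
  have hseg : seg (A.X j) (-t) (t + c) = seg (A.X i) (-t) (t + c) :=
    seg_ext fun k hk => hagr _ (by omega) (by omega)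
  have hlow : A.p i ≤ t → (A.r ((A.σ ^ (-(t : ℤ))) i)).length ≤ t + c := by
    intro h
    have h4 := A.hi_mono i (show -(t : ℤ) ≤ 0 + A.p i * (-1) by omega)
    rw [A.hi_per_mul, A.hi_zero, Sys.hi] at h4
    omega
  by_cases hj : P j
  · left
    have h4 := hL hj c hc2 hc1
    by_cases hs : A.Same i j
    · refine triOp_one hP (i := (A.σ ^ (-(t : ℤ))) j) (l := t + c) hj
        (by rw [A.word_pow]; exact hvert) ?_
      by_contra h5
      apply hc1
      have e1 := A.X_per j (c - A.p j)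
      have e2 := A.X_per i (c - A.p j)
      rw [hs.p_eq] at e2
      rw [sub_add_cancel] at e1 e2
      rw [e1, e2]
      exact hagr _ (by omega) (by omega)
    by_cases ht : t ≤ A.p i
    · have e1 : A.word i (A.p i + c) = seg (A.X i) (-A.p i) (A.p i + c) := by
        rw [← A.seg_per, neg_add_cancel, word]
      refine triOp_of hP i (A.p i + c) [i, j] (by simp) (by simpa using hs) ?_ (by simp; omega)
      simp only [List.mem_cons, List.not_mem_nil, or_false, forall_eq_or_imp, forall_eq]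
      refine ⟨⟨hi, _, Or.inl ?_, A.vert_self i⟩, hj, _, Or.inr ?_, hvert⟩
      · conv_lhs => rw [A.r_eq i]
        exact seg_pre _ _ (by omega)
      · rw [e1, hseg]
        exact seg_suf _ (by omega) (by push_cast; ring)
    · refine triOp_of hP ((A.σ ^ (-(t : ℤ))) j) (t + c) [i, j] (by simp) (by simpa using hs) ?_ ?_
      · simp only [List.mem_cons, List.not_mem_nil, or_false, forall_eq_or_imp, forall_eq]
        rw [A.word_pow]
        refine ⟨⟨hi, _, Or.inl ?_, A.vert_row i (-t)⟩, hj, _, Or.inl List.prefix_rfl, hvert⟩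
        rw [hseg, A.r_pow]
        exact seg_pre _ _ (hlow (by omega))
      · by_contra h5
        simp only [List.map_cons, List.map_nil, List.sum_cons, List.sum_nil] at h5
        exact hc1 (A.fw (a := -t) (fun n h6 h7 => hagr n (by omega) h7) (by omega) hp hq)
  by_cases ht : t ≤ A.p i
  · refine Or.inr ⟨i, A.p i - t, c - ((A.r i).length - A.p i), hi, by omega, by omega,
      by omega, j, hj, ?_⟩
    rw [A.round_seg i (by omega) (by omega) (by omega), Nat.cast_sub ht, sub_eq_neg_add,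
      A.seg_per, show (A.r i).length - (A.p i - t) + (c - ((A.r i).length - A.p i)) = t + c by
        omega, ← hseg]
    exact hvert
  have hs := A.same_pow i (-t)
  have hi1 := hP i _ hi hs
  have hlow' := hlow (by omega)
  by_cases h4 : (A.r ((A.σ ^ (-(t : ℤ))) i)).length ≤ A.p ((A.σ ^ (-(t : ℤ))) i)
  · exact Or.inl (triOp_row hP hi1 h4)
  by_cases h5 : t + c ≤ (A.r ((A.σ ^ (-(t : ℤ))) i)).length + A.p ((A.σ ^ (-(t : ℤ))) i)
  · refine Or.inr ⟨_, 0, t + c - (A.r ((A.σ ^ (-(t : ℤ))) i)).length, hi1, by omega, by omega,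
      by omega, j, hj, ?_⟩
    rw [A.round_seg _ (by omega) (by omega) (by omega), Nat.sub_zero, Nat.add_sub_cancel' hlow',
      Nat.cast_zero, ← word, A.word_pow, ← hseg]
    exact hvert
  exfalso
  rw [Sys.hi] at hb1 hb2
  have e1 : A.σ ((A.σ ^ (-(t : ℤ) - 1)) j) = (A.σ ^ (-(t : ℤ))) j := by
    rw [A.pow_succ, sub_add_cancel]
  refine hd _ ((A.σ ^ (-(t : ℤ) - 1)) j) (t + c) hi1 ⟨by omega, by omega, by omega, ?_, ?_, ?_⟩
  · rw [e1]; omega
  · rw [e1, A.take_r (by omega), A.word_pow, A.word_pow, hseg]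
  · rw [e1, A.r_getD (by omega), A.r_getD (by omega), A.X_pow, A.X_pow, ← hs.p_eq] at *
    intro h6
    apply hc1
    rw [show -(t : ℤ) + (t + c : ℕ) = c by push_cast; ring,
      show -(t : ℤ) + (t + c - A.p i : ℕ) = c - A.p i by omega] at h6
    rw [h6, hagr _ (by omega) (by omega), ← A.X_per i, sub_add_cancel]

end Sys

end Vale.Agent.P333
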