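import Vale.Agent.P333.PTa

/-! The count table and the rows are computed in polynomial time. -/

namespace Vale.Agent.P333

open Vale.Agent.Lib.H23 Enc Polynomial

variable {α : Type} [Enc α]

@[fun_prop] theorem pt_cyc {v : α → Str} {p e k : α → ℕ} (hv : PT v) (hp : PT p) (he : PT e)
    (hk : PT k) : PT (fun x => cyc (v x) (p x) (e x) (k x)) := by unfold cyc; fun_prop

@[fun_prop] theorem pt_cp {u v w : α → Str} {e : α → ℕ} (hu : PT u) (hv : PT v) (hw : PT w)
    (he : PT e) : PT (fun x => cp (u x) (v x) (w x) (e x)) := by unfold cp; fun_prop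

@[fun_prop] theorem pt_cl1 {t : α → Tab} {u v : α → Str} (ht : PT t) (hu : PT u) (hv : PT v) :
    PT (fun x => cl1 (t x) (u x) (v x)) := by unfold cl1; fun_prop

@[fun_prop] theorem pt_cl0 {t : α → Tab} {u v : α → Str} (ht : PT t) (hu : PT u) (hv : PT v) :
    PT (fun x => cl0 (t x) (u x) (v x)) := by unfold cl0; fun_prop

@[fun_prop] theorem pt_sumL {t : α → Tab} {u : α → Str} (ht : PT t) (hu : PT u) :
    PT (fun x => sumL (t x) (u x)) := by unfold sumL; fun_prop

@[fun_prop] theorem pt_sumR {t : α → Tab} {u : α → Str} (ht : PT t) (hu : PT u) :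
    PT (fun x => sumR (t x) (u x)) := by unfold sumR; fun_prop

@[fun_prop] theorem pt_rule {t : α → Tab} {u : α → Str} (ht : PT t) (hu : PT u) :
    PT (fun x => rule (t x) (u x)) := by unfold rule; fun_prop

@[fun_prop] theorem pt_val {S : α → List Str} {t : α → Tab} {u : α → Str} (hS : PT S) (ht : PT t)
    (hu : PT u) : PT (fun x => val (S x) (t x) (u x)) := by unfold val; fun_prop

@[fun_prop] theorem pt_dd {l : α → List Str} (hl : PT l) : PT (fun x => dd (l x)) := by
  refine pt_fold (f := fun _ (acc : List Str) x =>
    bif acc.any (fun y => eqL x y) then acc else acc ++ [x]) (fun p => [p.2]) (by fun_prop) hl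
    (by fun_prop) (by fun_prop) fun x s a => ?_
  have := sz_append s [a]
  cases s.any (fun y => eqL a y) <;> simp only [cond_true, cond_false] <;> omega

@[fun_prop] theorem pt_subs {S : α → List Str} {n : α → ℕ} (hS : PT S) (hn : PT n) :
    PT (fun x => subs (S x) (n x)) := by unfold subs; fun_prop

theorem sz_le_len {n m : ℕ} (h : n ≤ m) : sz n ≤ sz (List.replicate (2 * m) ()) := by
  rw [sz_replicate_unit]
  have := sz_nat_le (lt_of_le_of_lt h (Nat.lt_two_pow_self (n := m)))
  omega

theorem sz_map_le {β γ δ : Type} [Enc γ] [Enc δ] (l : List β) {f : β → γ} {g : β → δ}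
    (h : ∀ a ∈ l, sz (f a) ≤ sz (g a)) : sz (l.map f) ≤ sz (l.map g) := by
  induction l with
  | nil => exact le_rfl
  | cons a l ih =>
    have h1 := h a (by simp)
    have h2 := ih fun b hb => h b (by simp [hb])
    simp only [List.map_cons, sz_cons]
    omega

@[fun_prop] theorem pt_table {S : α → List Str} (hS : PT S) : PT (fun x => table (S x)) := by
  have key : PT table := by
    refine pt_fold (f := fun S (t : Tab) n => level S t n)
      (fun p => (subs p.1 (p.2 + 1)).map fun u =>
        (u, (p.1.flatten ++ p.1.flatten).map fun _ => ()))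
      (by unfold level; fun_prop) (by fun_prop) (by fun_prop) (by fun_prop) fun S t n => ?_
    unfold level
    have h1 := sz_append t ((subs S (n + 1)).map fun u =>
      (u, (S.flatten.take (val S t u)).length))
    have h2 := sz_map_le (subs S (n + 1))
      (f := fun u => (u, (S.flatten.take (val S t u)).length))
      (g := fun u => (u, (S.flatten ++ S.flatten).map fun _ => ())) fun u _ => by
        have h3 := sz_le_len (n := (S.flatten.take (val S t u)).length) (m := S.flatten.length)
          (by rw [List.length_take]; omega)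
        rw [List.map_const', List.length_append, ← two_mul]
        simp only [sz_pair]
        omega
    simp only
    omega
  exact PT.comp key hS

@[fun_prop] theorem pt_lng {t : α → Tab} {u : α → Str} (ht : PT t) (hu : PT u) :
    PT (fun x => lng (t x) (u x)) := by unfold lng; fun_prop

@[fun_prop] theorem pt_rows {S : α → List Str} (hS : PT S) : PT (fun x => rows (S x)) := by
  unfold rows; fun_prop

@[fun_prop] theorem pt_pick {r : α → List Str} {u : α → List ℕ} {y : α → Str} (hr : PT r)
    (hu : PT u) (hy : PT y) : PT (fun x => pick (r x) (u x) (y x)) := by unfold pick; fun_prop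

@[fun_prop] theorem pt_sgm {r : α → List Str} (hr : PT r) : PT (fun x => sgm (r x)) := by
  have key : PT sgm := by
    refine pt_fold (f := fun r (used : List ℕ) y => used ++ [pick r used y])
      (fun p => [rg p.1]) (by fun_prop) (by fun_prop) (by fun_prop) (by fun_prop) fun r u y => ?_
    have h1 := sz_append u [pick r u y]
    have h2 : sz (pick r u y) ≤ sz (rg r) := by
      unfold pick
      rcases headD_mem ((rg r).filter fun j => !(u.any fun k => eqb j k) &&
        pre y.tail (r.getD j [])) 0 with h | h
      · rw [h]; exact sz_pos _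
      · exact (sz_lt_of_mem (List.mem_of_mem_filter h)).le
    simp only [sz_cons, sz_nil] at h1 ⊢
    omega
  exact PT.comp key hr

end Vale.Agent.P333
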