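import Vale.Agent.P333.Table

/-! The rows, and the greedy successor map. -/

namespace Vale.Agent.P333

open Finset Vale.Agent.Lib.H23

theorem card_range_filter (r : List Str) (P : Str → Prop) [DecidablePred P] :
    ((range r.length).filter fun i => P (r.getD i [])).card =
      (r.map fun x => if P x then 1 else 0).sum := by
  rw [card_filter, ← Fin.sum_univ_fun_getElem, ← Fin.sum_univ_eq_sum_range
    (fun i => if P (r.getD i []) then 1 else 0)]
  refine sum_congr rfl fun i _ => ?_
  rw [List.getD_eq_getElem _ _ i.2]

theorem pre_dec {U : Finset Str} {x : Str} (hx : ∀ w, w ≠ [] → w <+: x → w ∈ U) (v : Str) :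
    (if v <+: x then 1 else 0 : ℕ) = (if x = v then 1 else 0) + ∑ w ∈ longer U v,
      if w.take (w.length - 1) = v then (if w <+: x then 1 else 0) else 0 := by
  by_cases h1 : x = v
  · subst h1
    rw [if_pos List.prefix_rfl, if_pos rfl]
    refine (congrArg (1 + ·) (sum_eq_zero fun w hw => ?_)).symm
    have := (mem_filter.1 hw).2
    rw [if_neg (fun h : w <+: x => by have := h.length_le; omega), ite_self]
  by_cases h2 : v <+: x
  · have h3 : v.length < x.length :=
      lt_of_le_of_ne h2.length_le fun e => h1 (h2.eq_of_length e).symm
    have h4 : (x.take (v.length + 1)).length = v.length + 1 := by rw [List.length_take]; omega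
    rw [if_pos h2, if_neg h1, zero_add, sum_eq_single_of_mem (x.take (v.length + 1))]
    · rw [if_pos (List.take_prefix _ _), if_pos]
      rw [h4, List.take_take, Nat.add_sub_cancel, min_eq_left (by omega),
        ← List.prefix_iff_eq_take.1 h2]
    · exact mem_filter.2 ⟨hx _ (List.ne_nil_of_length_pos (by omega)) (List.take_prefix _ _),
        by omega⟩
    · intro w hw h5
      split_ifs with h6 h7
      · exfalso
        apply h5
        have h8 := congrArg List.length h6
        have h9 := (mem_filter.1 hw).2
        rw [List.length_take] at h8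
        rw [List.prefix_iff_eq_take.1 h7, show w.length = v.length + 1 by omega]
      · rfl
      · rfl
  · rw [if_neg h2, if_neg h1, zero_add]
    refine (sum_eq_zero fun w _ => ?_).symm
    split_ifs with h6 h7
    · exact absurd (h6 ▸ (List.take_prefix _ _).trans h7) h2
    · rfl
    · rfl

theorem rows_spec (S : List Str) : ∃ (U : Finset Str) (m : Str → ℕ), Cnt S U m ∧
    (∀ x ∈ rows S, x ∈ U) ∧ (rows S).Pairwise (fun a b => b.length ≤ a.length) ∧
    (∀ v ∈ U, m v = ((rows S).map fun x => if v <+: x then 1 else 0).sum) ∧
    ∀ T : Str, (∀ s ∈ S, s <:+: T) → (rows S).length ≤ T.length := by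
  obtain ⟨l, m, h1, h2, h3, h4⟩ := table_spec S
  obtain ⟨R, hR⟩ : ∃ R : Str → ℕ, R = fun u =>
    ∑ w ∈ longer l.toFinset u, (if w.take (w.length - 1) = u then m w else 0) := ⟨_, rfl⟩
  have e : rows S = l.flatMap fun u => List.replicate (m u - R u) u := by
    rw [rows, h1, List.flatMap_map]
    congr 1
    funext u
    have := h4.le u
    simp only [sumR_eq h2, List.map_const', List.length_take, hR]
    rw [min_eq_left (by omega)]
  have e2 : ∀ φ : Str → ℕ, ((rows S).map φ).sum = ∑ u ∈ l.toFinset, (m u - R u) * φ u := by
    intro φ
    rw [e, List.sum_toFinset _ h2]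
    clear e h1 h2 h3 h4 hR
    induction l with
    | nil => simp
    | cons a l ih => simp [ih]
  have hpre : ∀ x ∈ l.toFinset, ∀ w, w ≠ [] → w <+: x → w ∈ l.toFinset := by
    intro x hx w b1 b2
    obtain ⟨-, s, hs, b3⟩ := (h4.mem x).1 hx
    exact (h4.mem w).2 ⟨b1, s, hs, b2.isInfix.trans b3⟩
  have step : ∀ v, (∀ w ∈ longer l.toFinset v,
      m w = ((rows S).map fun x => if w <+: x then 1 else 0).sum) →
      ((rows S).map fun x => if v <+: x then 1 else 0).sum =
        (if v ∈ l.toFinset then m v - R v else 0) + R v := by
    intro v ih
    rw [e2, sum_congr rfl fun x hx => by rw [pre_dec (hpre x hx) v, mul_add, mul_sum],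
      sum_add_distrib, sum_comm]
    congr 1
    · simp
    · rw [hR]
      refine sum_congr rfl fun w hw => ?_
      rw [ih w hw, e2, hR]
      split_ifs <;> simp
  have key : ∀ k, ∀ v ∈ l.toFinset, S.flatten.length < v.length + k →
      m v = ((rows S).map fun x => if v <+: x then 1 else 0).sum := by
    intro k
    induction k with
    | zero =>
      intro v hv b1
      obtain ⟨-, s, hs, b2⟩ := (h4.mem v).1 hv
      have := b2.length_le
      have := (List.sublist_flatten_of_mem hs).length_le
      omega
    | succ k ih =>
      intro v hv b1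
      rw [step v fun w hw => ih w (mem_filter.1 hw).1 (by have := (mem_filter.1 hw).2; omega),
        if_pos hv, Nat.sub_add_cancel]
      rw [hR]
      exact h4.hR v hv
  have key' := fun v hv => key (S.flatten.length + 1) v hv (by omega)
  refine ⟨l.toFinset, m, h4, fun x hx => ?_, ?_, key', fun T hT => ?_⟩
  · rw [e, List.mem_flatMap] at hx
    obtain ⟨u, hu, hx⟩ := hx
    rw [List.eq_of_mem_replicate hx]
    exact List.mem_toFinset.2 hu
  · rw [e, List.pairwise_flatMap]
    refine ⟨fun u _ => by simp [List.pairwise_replicate], h3.imp fun {a b} hab x hx y hy => ?_⟩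
    rw [List.eq_of_mem_replicate hx, List.eq_of_mem_replicate hy]
    exact hab
  · have b1 := step [] fun w hw => key' w (mem_filter.1 hw).1
    rw [if_neg fun h => ((h4.mem _).1 h).1 rfl, zero_add] at b1
    simp only [List.nil_prefix, if_true, List.map_const', List.sum_replicate, smul_eq_mul,
      mul_one] at b1
    rw [b1, hR]
    refine le_trans (sum_le_sum fun w hw => ?_) ((valid_R T l.toFinset []).trans (occ_le _ _))
    split_ifs
    · exact h4.valid T hT w (mem_filter.1 hw).1
    · exact le_rfl

theorem hall {S : List Str} {U : Finset Str} {m : Str → ℕ} (h : Cnt S U m) {r : List Str}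
    (h1 : ∀ x ∈ r, x ∈ U) (h2 : ∀ v ∈ U, m v = (r.map fun x => if v <+: x then 1 else 0).sum)
    (y : Str) : ((range r.length).filter fun i => y <+: (r.getD i []).tail).card ≤
      ((range r.length).filter fun i => y <+: r.getD i []).card := by
  by_cases hy : y = []
  · subst hy; simp
  have hU : ∀ i < r.length, ∀ w, w ≠ [] → w <:+: r.getD i [] → w ∈ U := by
    intro i hi w b1 b2
    rw [List.getD_eq_getElem _ _ hi] at b2
    obtain ⟨-, s, hs, b3⟩ := (h.mem _).1 (h1 _ (List.getElem_mem hi))
    exact (h.mem w).2 ⟨b1, s, hs, b2.trans b3⟩
  by_cases hyU : y ∈ U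
  · rw [card_range_filter r (fun x => y <+: x), ← h2 y hyU]
    refine le_trans ?_ (h.hL y hyU)
    have hsub : ((range r.length).filter fun i => y <+: (r.getD i []).tail) ⊆
        (longer U y).biUnion fun w => if w.tail = y then
          (range r.length).filter fun i => w <+: r.getD i [] else ∅ := by
      intro i hi
      rw [mem_filter, mem_range] at hi
      have b1 := hi.2.length_le
      have b2 := List.length_pos_iff.2 hy
      rw [List.length_tail] at b1
      have b3 : ((r.getD i []).take (y.length + 1)).length = y.length + 1 := by
        rw [List.length_take]; omega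
      refine mem_biUnion.2 ⟨(r.getD i []).take (y.length + 1), mem_filter.2 ⟨hU i hi.1 _
        (List.ne_nil_of_length_pos (by omega)) (List.take_prefix _ _).isInfix, by omega⟩, ?_⟩
      rw [if_pos]
      · exact mem_filter.2 ⟨mem_range.2 hi.1, List.take_prefix _ _⟩
      · rw [List.prefix_iff_eq_take.1 hi.2, List.length_take, List.length_tail,
          min_eq_left b1]
        cases r.getD i [] <;> simp
    refine (card_le_card hsub).trans (card_biUnion_le.trans (sum_le_sum fun w hw => ?_))
    split_ifs
    · rw [card_range_filter r (fun x => w <+: x), ← h2 w (mem_filter.1 hw).1]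
    · simp
  · rw [filter_eq_empty_iff.2, card_empty]
    · exact Nat.zero_le _
    · intro i hi b1
      exact hyU (hU i (mem_range.1 hi) y hy (b1.isInfix.trans (List.tail_suffix _).isInfix))

theorem sgm_spec {r : List Str} (h1 : r.Pairwise fun a b => b.length ≤ a.length)
    (h2 : ∀ y : Str, ((range r.length).filter fun i => y <+: (r.getD i []).tail).card ≤
      ((range r.length).filter fun i => y <+: r.getD i []).card) :
    (sgm r).length = r.length ∧ (sgm r).Nodup ∧ ∀ i < r.length, (sgm r).getD i 0 < r.length ∧
      (r.getD i []).tail <+: r.getD ((sgm r).getD i 0) [] := by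
  have key : ∀ k ≤ r.length, ∀ u, u = (r.take k).foldl (fun used y => used ++ [pick r used y]) [] →
      u.length = k ∧ u.Nodup ∧ ∀ i < k, u.getD i 0 < r.length ∧
        (r.getD i []).tail <+: r.getD (u.getD i 0) [] := by
    intro k
    induction k with
    | zero => rintro - u rfl; simp
    | succ k ih =>
      intro hk u hu
      rw [List.take_succ_eq_append_getElem (by omega), List.foldl_append, List.foldl_cons,
        List.foldl_nil, ← List.getD_eq_getElem _ [] (show k < r.length by omega)] at hu
      obtain ⟨b1, b2, b3⟩ := ih (by omega) _ rfl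
      generalize (r.take k).foldl (fun used y => used ++ [pick r used y]) [] = t at hu b1 b2 b3
      have hex : ∃ j < r.length, j ∉ t ∧ (r.getD k []).tail <+: r.getD j [] := by
        by_contra hc
        push Not at hc
        have hsub : ((range r.length).filter fun j => (r.getD k []).tail <+: r.getD j []) ⊆
            (((range r.length).filter fun i => (r.getD k []).tail <+: (r.getD i []).tail).erase
              k).image fun i => t.getD i 0 := by
          intro j hj
          rw [mem_filter, mem_range] at hj
          have c1 : j ∈ t := by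
            by_contra c1
            exact hc j hj.1 c1 hj.2
          obtain ⟨i, hi, rfl⟩ := List.getElem_of_mem c1
          have c2 := (b3 i (by omega)).2
          rw [List.getD_eq_getElem _ 0 hi] at c2
          refine mem_image.2 ⟨i, mem_erase.2 ⟨by omega, mem_filter.2 ⟨mem_range.2 (by omega),
            List.prefix_of_prefix_length_le hj.2 c2 ?_⟩⟩, List.getD_eq_getElem _ 0 hi⟩
          have c3 := List.pairwise_iff_getElem.1 h1 i k (by omega) (by omega) (by omega)
          rw [List.length_tail, List.length_tail, List.getD_eq_getElem _ _ (by omega),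
            List.getD_eq_getElem _ _ (by omega)]
          omega
        have c4 := (card_le_card hsub).trans card_image_le
        have c5 : k ∈ (range r.length).filter
            fun i => (r.getD k []).tail <+: (r.getD i []).tail :=
          mem_filter.2 ⟨mem_range.2 (by omega), List.prefix_rfl⟩
        rw [card_erase_of_mem c5] at c4
        have c6 := card_pos.2 ⟨k, c5⟩
        have c7 := h2 (r.getD k []).tail
        omega
      have hmem : ∀ j, j ∈ (rg r).filter (fun j => !(t.any fun k => eqb j k) &&
          pre (r.getD k []).tail (r.getD j [])) ↔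
          j < r.length ∧ j ∉ t ∧ (r.getD k []).tail <+: r.getD j [] := by
        intro j
        simp only [List.mem_filter, mem_rg, Bool.and_eq_true, pre_iff, Bool.not_eq_true',
          List.any_eq_false, eqb_eq, decide_eq_true_eq]
        refine and_congr Iff.rfl (and_congr ⟨fun c1 c2 => c1 j c2 rfl, ?_⟩ Iff.rfl)
        rintro c1 x c2 rfl
        exact c1 c2
      obtain ⟨j, hj⟩ := hex
      have hp := (hmem _).1 (headD_mem' (List.ne_nil_of_mem ((hmem j).2 hj)) 0)
      rw [← pick] at hp
      subst hu
      refine ⟨by simp [b1], ?_, fun i hi => ?_⟩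
      · rw [List.nodup_append]
        refine ⟨b2, by simp, fun a ha b hb => ?_⟩
        rw [List.mem_singleton.1 hb]
        rintro rfl
        exact hp.2.1 ha
      · by_cases c1 : i < k
        · rw [List.getD_append _ _ _ _ (by omega)]
          exact b3 i c1
        · obtain rfl : i = k := by omega
          rw [List.getD_append_right _ _ _ _ (by omega), b1, Nat.sub_self]
          exact ⟨hp.1, hp.2.2⟩
  exact key r.length le_rfl _ (by rw [List.take_length, sgm])

end Vale.Agent.P333
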