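import Vale.Agent.P333.First

/-! The second phase and the approximation guarantee. -/

namespace Vale.Agent.P333

open Finset Vale.Agent.Lib.H23

def Good (G : Ctx) (A : Sys (Fin G.1.length)) (s : Mv × List ℕ) : Prop :=
  (∀ d ∈ s.2, d < G.1.length) ∧
    ∀ j : Fin G.1.length, isD G s.2 j = true → ∀ y, A.Vert j y → Vis [] s.1 y

def Inv (G : Ctx) (A : Sys (Fin G.1.length)) (s : Mv × List ℕ) : Prop :=
  Good G A s ∧ cost s.1 ≤ 2 * cnt G s.2 ∧ ∀ i j l, A.Ex i j l → isD G s.2 i = true

theorem cnt_eq (G : Ctx) (D : List ℕ) :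
    cnt G D = (univ.filter fun j : Fin G.1.length => isD G D j = true).card :=
  length_filter_rg _ _ _ fun _ => Iff.rfl

theorem cnt_add_le {G : Ctx} {D E : List ℕ} (J : Finset (Fin G.1.length))
    (h1 : ∀ j : Fin G.1.length, isD G D j = true → isD G E j = true)
    (h2 : ∀ j ∈ J, isD G D j = false ∧ isD G E j = true) : cnt G D + J.card ≤ cnt G E := by
  rw [cnt_eq, cnt_eq, ← card_union_of_disjoint]
  · apply card_le_card
    intro j hj
    simp only [mem_union, mem_filter, mem_univ, true_and] at hj ⊢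
    rcases hj with hj | hj
    · exact h1 j hj
    · exact (h2 j hj).2
  · rw [disjoint_left]
    intro j b1 b2
    have := (h2 j b2).1
    rw [(mem_filter.1 b1).2] at this
    exact absurd this (by simp)

namespace Rep

variable {G : Ctx} {A : Sys (Fin G.1.length)} (R : Rep G A)
include R

theorem isD_same {D : List ℕ} (hD : ∀ d ∈ D, d < G.1.length) {i j : Fin G.1.length}
    (h : isD G D i = true) (e : A.Same i j) : isD G D j = true := by
  obtain ⟨d, h1, h2⟩ := List.any_eq_true.1 h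
  exact List.any_eq_true.2 ⟨d, h1, (R.same_iff ⟨d, hD d h1⟩ j).2
    (((R.same_iff ⟨d, hD d h1⟩ i).1 h2).trans e)⟩

theorem abs1_spec (s : Mv × List ℕ) (h : Good G A s) (i : Fin G.1.length) :
    Good G A (abs1 G s i) ∧ (∀ y, Vis [] s.1 y → Vis [] (abs1 G s i).1 y) ∧
    (∀ j : Fin G.1.length, isD G s.2 j = true → isD G (abs1 G s i).2 j = true) ∧
    cost (abs1 G s i).1 + cnt G s.2 ≤ cost s.1 + cnt G (abs1 G s i).2 ∧
    (touch s.1 (curve G i) = true → isD G (abs1 G s i).2 i = true) := by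
  classical
  unfold abs1
  cases e : (!(isD G s.2 i) && touch s.1 (curve G i))
  · refine ⟨h, fun _ h => h, fun _ h => h, le_rfl, fun ht => ?_⟩
    simpa [ht] using e
  · simp only [Bool.and_eq_true, Bool.not_eq_true'] at e
    obtain ⟨c1, c2, c3⟩ := R.curve_spec i
    obtain ⟨a1, a2, a3⟩ := attach_spec s.1 (curve G i) c1
    have hc : ∀ j : Fin G.1.length,
        isD G (i :: s.2) j = true ↔ A.Same i j ∨ isD G s.2 j = true := by
      intro j
      rw [isD, List.any_cons, Bool.or_eq_true, R.same_iff, isD]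
    simp only [cond_true]
    refine ⟨⟨fun d hd => ?_, fun j hj y hy => ?_⟩, a1, fun j hj => (hc j).2 (Or.inr hj), ?_,
      fun _ => (hc i).2 (Or.inl (Sys.Same.refl A i))⟩
    · rcases List.mem_cons.1 hd with rfl | hd
      · exact i.2
      · exact h.1 d hd
    · rcases (hc j).1 hj with b | b
      · exact a2 e.2 y (c3 y (hy.same b))
      · exact a1 y (h.2 j b y hy)
    · have := cnt_add_le (D := s.2) (E := i :: s.2) (univ.filter fun j => A.Same i j)
        (fun j hj => (hc j).2 (Or.inr hj)) fun j hj => by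
          have b := (mem_filter.1 hj).2
          refine ⟨?_, (hc j).2 (Or.inl b)⟩
          by_contra b1
          have := R.isD_same h.1 (Bool.eq_true_of_not_eq_false b1) b.symm
          rw [e.1] at this
          exact absurd this (by simp)
      rw [A.card_same] at this
      omega

theorem absorb_aux (l : List (Fin G.1.length)) : ∀ s t : Mv × List ℕ, Good G A s →
    t = (l.map Fin.val).foldl (abs1 G) s →
    Good G A t ∧ (∀ y, Vis [] s.1 y → Vis [] t.1 y) ∧
    (∀ j : Fin G.1.length, isD G s.2 j = true → isD G t.2 j = true) ∧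
    cost t.1 + cnt G s.2 ≤ cost s.1 + cnt G t.2 ∧
    ∀ i ∈ l, touch s.1 (curve G i) = true → isD G t.2 i = true := by
  induction l with
  | nil =>
    rintro s t h rfl
    exact ⟨h, fun _ h => h, fun _ h => h, le_rfl, by simp⟩
  | cons a l ih =>
    intro s t h e
    obtain ⟨a1, a2, a3, a4, a5⟩ := R.abs1_spec s h a
    obtain ⟨b1, b2, b3, b4, b5⟩ := ih _ t a1 e
    refine ⟨b1, fun y hy => b2 y (a2 y hy), fun j hj => b3 j (a3 j hj), by omega,
      fun i hi ht => ?_⟩
    rcases List.mem_cons.1 hi with rfl | hi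
    · exact b3 _ (a5 ht)
    · exact b5 i hi (touch_mono a2 ht)

theorem absorb_spec (s : Mv × List ℕ) (h : Good G A s) :
    Good G A (absorb G s) ∧
    (∀ j : Fin G.1.length, isD G s.2 j = true → isD G (absorb G s).2 j = true) ∧
    cost (absorb G s).1 + cnt G s.2 ≤ cost s.1 + cnt G (absorb G s).2 ∧
    ∀ i : Fin G.1.length, touch s.1 (curve G i) = true → isD G (absorb G s).2 i = true := by
  obtain ⟨h1, -, h3, h4, h5⟩ := R.absorb_aux (List.finRange _) s (absorb G s) h
    (by rw [absorb, rg, List.map_coe_finRange_eq_range])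
  exact ⟨h1, h3, h4, fun i => h5 i (List.mem_finRange i)⟩

theorem inv_first : Inv G A (absorb G (first G, [])) := by
  obtain ⟨L, h1, h2, h3, h4⟩ := R.first_spec
  obtain ⟨a1, -, a3, a4⟩ := R.absorb_spec (first G, []) ⟨by simp, by simp [isD]⟩
  refine ⟨a1, ?_, fun i j l e => ?_⟩
  · have := A.sum_p_le L h1 (univ.filter fun j => isD G (absorb G (first G, [])).2 j = true)
      fun i hi j e => mem_filter.2 ⟨mem_univ _, R.isD_same a1.1 (a4 i (h3 i hi)) e⟩
    rw [← cnt_eq] at this
    simp only at a3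
    omega
  · obtain ⟨k, b1, b2⟩ := h4 i j l e
    exact R.isD_same a1.1 (a4 k (h3 k b1)) b2

omit R in
theorem cands_closed {Z : Str × Mv} (h : Z ∈ cands G) : run Z.1 Z.2 = Z.1 := by
  rcases List.mem_append.1 h with h | h
  · obtain ⟨y, -, rfl⟩ := List.mem_map.1 h
    exact run_tri y
  · exact eqL_iff.1 (List.mem_filter.1 h).2

theorem exists_op (hK : A.Key) {s : Mv × List ℕ} (h : Inv G A s) (hc : cnt G s.2 < G.1.length) :
    ∃ Z ∈ cands G, ∃ J : Finset (Fin G.1.length), J.Nonempty ∧ cost Z.2 ≤ J.card ∧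
      ∀ j ∈ J, isD G s.2 j = false ∧ touch (attach s.1 Z) (curve G j) = true := by
  classical
  have hP : ∀ i j : Fin G.1.length, isD G s.2 i = false → A.Same i j → isD G s.2 j = false := by
    intro i j b1 b2
    by_contra b3
    have := R.isD_same h.1.1 (Bool.eq_true_of_not_eq_false b3) b2.symm
    rw [b1] at this
    exact absurd this (by simp)
  have hne : ∃ i : Fin G.1.length, isD G s.2 i = false := by
    by_contra b
    push Not at b
    rw [cnt_eq, filter_true_of_mem fun j _ => Bool.eq_true_of_not_eq_false (b j), card_univ,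
      Fintype.card_fin] at hc
    exact lt_irrefl _ hc
  rcases Sys.ops hK (fun i => isD G s.2 i = false) hP hne (fun i j l b e => by
    rw [h.2.2 i j l e] at b
    exact absurd b (by simp)) with ⟨i, l, ⟨j, b1⟩, b2⟩ | ⟨i, a, b, b1, b2, b3, b4, j, b5, b6⟩
  · obtain ⟨J, hJ, b2⟩ : ∃ J : Finset (Fin G.1.length),
        (∀ k, k ∈ J ↔ isD G s.2 k = false ∧ A.Touch (A.word i l) k) ∧ l ≤ J.card :=
      ⟨_, fun k => by simp, b2⟩
    have b3 : l ≤ G.1.length := b2.trans ((card_le_univ _).trans (by simp))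
    obtain ⟨-, a2, -⟩ := attach_spec s.1 ([], tri (A.word i l)) (run_tri _)
    refine ⟨([], tri (A.word i l)), List.mem_append_left _
      (List.mem_map.2 ⟨_, R.mem_words i b3, rfl⟩), J, ⟨j, (hJ j).2 b1⟩,
      by rw [cost_tri, Sys.word, seg_length]; exact b2, fun k hk => ?_⟩
    obtain ⟨c1, c2⟩ := (hJ k).1 hk
    exact ⟨c1, R.touch_of c2 (a2 (touch_iff.2 ⟨[], Vis.start _ _, Vis.start _ _⟩))⟩
  · have hW := p_le (A := A) i
    have hy : ((A.r i).drop ((A.r i).length - A.p i)).length = A.p i := by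
      rw [List.length_drop]; omega
    have eZ : round G i a b = (A.r i, rnd ((A.r i).drop ((A.r i).length - A.p i)) a b) := by
      rw [round, R.per_eq, ← R.r]
    have hcl : run (A.r i) (rnd ((A.r i).drop ((A.r i).length - A.p i)) a b) = A.r i := by
      refine run_rnd b (by omega) (by omega) ?_
      have c1 := A.round_seg i b2 le_rfl le_rfl
      rw [List.take_of_length_le hy.le, Nat.sub_add_cancel b2, ← zero_add (A.p i : ℤ), A.seg_per,
        ← Sys.word, ← A.r_eq] at c1
      rw [hy, c1]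
    obtain ⟨-, a2, -⟩ := attach_spec s.1
      (A.r i, rnd ((A.r i).drop ((A.r i).length - A.p i)) a b) hcl
    refine ⟨(A.r i, rnd ((A.r i).drop ((A.r i).length - A.p i)) a b),
      List.mem_append_right _ (List.mem_filter.2 ⟨?_, eqL_iff.2 hcl⟩),
      univ.filter fun k => A.Same i k, ⟨i, mem_filter.2 ⟨mem_univ _, Sys.Same.refl A i⟩⟩,
      by rw [cost_rnd, hy, A.card_same], fun k hk => ?_⟩
    · simp only [List.mem_flatMap, List.mem_map, mem_rg, mem_rg1]
      exact ⟨i, i.2, a, by omega, b, by omega, eZ⟩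
    · have c1 := (mem_filter.1 hk).2
      refine ⟨hP i k b1 c1, touch_iff.2 ⟨A.r i, a2 (touch_iff.2 ⟨_, h.1.2 j
        (Bool.eq_true_of_not_eq_false b5) _ b6, vis_rnd _ _ b (by omega)⟩) _ (Vis.start _ _),
        (R.curve_spec k).2.2 _ ((A.vert_self i).same c1.symm)⟩⟩

theorem step_spec (hK : A.Key) {s : Mv × List ℕ} (h : Inv G A s) :
    Inv G A (step G s) ∧ cnt G s.2 ≤ cnt G (step G s).2 ∧
      (cnt G s.2 < G.1.length → cnt G s.2 < cnt G (step G s).2) := by
  have hg : ∀ Z ∈ cands G, Good G A (attach s.1 Z, s.2) := fun Z hZ =>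
    ⟨h.1.1, fun j hj y hy => (attach_spec s.1 Z (cands_closed hZ)).1 y (h.1.2 j hj y hy)⟩
  have hmem : ∀ t, t ∈ (((cands G).map fun Z => absorb G (attach s.1 Z, s.2)).filter
      fun t => ltb (cnt G s.2) (cnt G t.2) && leb (cost t.1) (2 * cnt G t.2)) ↔
      (∃ Z ∈ cands G, absorb G (attach s.1 Z, s.2) = t) ∧ cnt G s.2 < cnt G t.2 ∧
        cost t.1 ≤ 2 * cnt G t.2 := by
    intro t
    simp only [List.mem_filter, List.mem_map, Bool.and_eq_true, ltb_eq, decide_eq_true_eq, leb_iff]
  by_cases hn : (((cands G).map fun Z => absorb G (attach s.1 Z, s.2)).filter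
      fun t => ltb (cnt G s.2) (cnt G t.2) && leb (cost t.1) (2 * cnt G t.2)) = []
  · have e : step G s = s := by rw [step, hn]; rfl
    rw [e]
    refine ⟨h, le_rfl, fun hc => ?_⟩
    obtain ⟨Z, hZ, J, b1, b2, b3⟩ := R.exists_op hK h hc
    obtain ⟨-, a2, a3, a4⟩ := R.absorb_spec _ (hg Z hZ)
    have c1 := cnt_add_le J a2 fun j hj => ⟨(b3 j hj).1, a4 j (b3 j hj).2⟩
    have c2 := (attach_spec s.1 Z (cands_closed hZ)).2.2
    have c3 := card_pos.2 b1
    have c4 := h.2.1
    simp only at a3 c1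
    exact absurd hn (List.ne_nil_of_mem ((hmem _).2 ⟨⟨Z, hZ, rfl⟩, by omega, by omega⟩))
  · obtain ⟨⟨Z, hZ, e⟩, b1, b2⟩ := (hmem _).1 (headD_mem' hn s)
    rw [← step] at e b1 b2
    obtain ⟨a1, a2, -, -⟩ := R.absorb_spec _ (hg Z hZ)
    rw [e] at a1 a2
    exact ⟨⟨a1, b2, fun i j l c => a2 i (h.2.2 i j l c)⟩, b1.le, fun _ => b1⟩

theorem final_spec (hK : A.Key) : cost (final G).1 ≤ 2 * G.1.length ∧
    ∀ i, A.r i <:+: out (final G).1 := by
  have key : ∀ (l : List ℕ) (s : Mv × List ℕ), Inv G A s →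
      Inv G A (l.foldl (fun s _ => step G s) s) ∧
      min G.1.length (cnt G s.2 + l.length) ≤ cnt G (l.foldl (fun s _ => step G s) s).2 := by
    intro l
    induction l with
    | nil => intro s h; exact ⟨h, by simp⟩
    | cons a l ih =>
      intro s h
      obtain ⟨a1, a2, a3⟩ := R.step_spec hK h
      obtain ⟨b1, b2⟩ := ih _ a1
      refine ⟨b1, le_trans ?_ b2⟩
      rw [List.length_cons]
      omega
  obtain ⟨h1, h2⟩ := key (rg G.1) _ R.inv_first
  rw [← final] at h1 h2
  have h3 : cnt G (final G).2 ≤ G.1.length := by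
    rw [cnt_eq]
    exact (card_filter_le _ _).trans (by simp)
  have h4 : (rg G.1).length = G.1.length := by simp [rg]
  have h5 := h1.2.1
  refine ⟨by omega, fun i => (h1.1.2 i ?_ _ (A.vert_self i)).inf⟩
  have h6 : (univ.filter fun j : Fin G.1.length => isD G (final G).2 j = true) = univ := by
    apply eq_univ_of_card
    rw [← cnt_eq, Fintype.card_fin]
    omega
  have h7 := mem_univ i
  rw [← h6] at h7
  exact (mem_filter.1 h7).2

end Rep

theorem scs_spec (S : List Str) : (∀ s ∈ S, s <:+: scs S) ∧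
    ∀ T : Str, (∀ s ∈ S, s <:+: T) → (scs S).length ≤ 2 * T.length := by
  obtain ⟨A, R, hK, h1, h2⟩ := exists_sys S
  obtain ⟨h3, h4⟩ := R.final_spec hK
  refine ⟨fun s hs => ?_, fun T hT => h3.trans (Nat.mul_le_mul_left 2 (h2 T hT))⟩
  by_cases e : s = []
  · rw [e]; exact List.nil_infix
  · obtain ⟨i, hi⟩ := h1 s hs e
    exact hi.isInfix.trans (h4 i)

end Vale.Agent.P333
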