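import Vale.Agent.P333.Valid

/-! The count table. -/

namespace Vale.Agent.P333

open Finset Vale.Agent.Lib.H23

theorem foldl_max_le (l : List ℕ) (a b : ℕ) : l.foldl max a ≤ b ↔ a ≤ b ∧ ∀ x ∈ l, x ≤ b := by
  induction l generalizing a with
  | nil => simp
  | cons c l ih => simp [ih, and_assoc]

theorem maxL_le {l : List ℕ} {b : ℕ} : maxL l ≤ b ↔ ∀ x ∈ l, x ≤ b := by
  simp [maxL, foldl_max_le]

theorem le_maxL {l : List ℕ} {x : ℕ} (h : x ∈ l) : x ≤ maxL l := maxL_le.1 le_rfl x h

theorem dd_aux (l : List Str) : ∀ acc : List Str, acc.Nodup →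
    (l.foldl (fun acc x => bif acc.any (fun y => eqL x y) then acc else acc ++ [x]) acc).Nodup ∧
    ∀ u, u ∈ l.foldl (fun acc x => bif acc.any (fun y => eqL x y) then acc else acc ++ [x]) acc ↔
      u ∈ acc ∨ u ∈ l := by
  induction l with
  | nil => intro acc h; simp [h]
  | cons x l ih =>
    intro acc h
    rw [List.foldl_cons]
    by_cases hx : x ∈ acc
    · have e : acc.any (fun y => eqL x y) = true := List.any_eq_true.2 ⟨x, hx, eqL_iff.2 rfl⟩
      rw [e, cond_true]
      refine ⟨(ih acc h).1, fun u => ?_⟩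
      rw [(ih acc h).2, List.mem_cons]
      constructor
      · tauto
      · rintro (h1 | rfl | h1) <;> tauto
    · have e : acc.any (fun y => eqL x y) = false := by
        rw [List.any_eq_false]
        intro y hy h1
        exact hx (eqL_iff.1 h1 ▸ hy)
      rw [e, cond_false]
      have h' : (acc ++ [x]).Nodup := by
        rw [List.nodup_append]
        refine ⟨h, by simp, fun a ha b hb => ?_⟩
        rw [List.mem_singleton.1 hb]
        rintro rfl
        exact hx ha
      refine ⟨(ih _ h').1, fun u => ?_⟩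
      rw [(ih _ h').2]
      simp [or_assoc]

theorem nodup_subs (S : List Str) (n : ℕ) : (subs S n).Nodup := (dd_aux _ [] (by simp)).1

theorem mem_subs {S : List Str} {n : ℕ} {u : Str} :
    u ∈ subs S (n + 1) ↔ u.length = n + 1 ∧ ∃ s ∈ S, u <:+: s := by
  unfold subs dd
  rw [(dd_aux _ [] (by simp)).2]
  simp only [List.not_mem_nil, false_or, List.mem_flatMap, List.mem_map, List.mem_filter, mem_rg,
    leb_iff]
  constructor
  · rintro ⟨s, hs, a, ⟨-, h2⟩, rfl⟩
    exact ⟨by simp; omega, s, hs,
      (List.take_prefix _ _).isInfix.trans (List.drop_suffix _ _).isInfix⟩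
  · rintro ⟨h1, s, hs, a, b, rfl⟩
    refine ⟨_, hs, a.length, by simp; omega, ?_⟩
    rw [List.append_assoc, List.drop_left, ← h1, List.take_left]

theorem level_spec (S : List Str) (ns : List ℕ) : ∀ t0 : Tab, ns.Pairwise (· > ·) →
    (∀ x ∈ t0, ∀ n ∈ ns, n + 1 < x.1.length) →
    ns.foldl (level S) t0 = t0 ++ (ns.flatMap fun n => subs S (n + 1)).map fun u =>
      (u, (S.flatten.take (val S (lng (ns.foldl (level S) t0) u) u)).length) := by
  induction ns with
  | nil => intro t0 _ _; simp
  | cons n ns ih =>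
    intro t0 h1 h2
    rw [List.pairwise_cons] at h1
    have h3 := ih (level S t0 n) h1.2 fun x hx k hk => by
      rcases List.mem_append.1 hx with h | h
      · exact h2 x h k (by simp [hk])
      · obtain ⟨u, hu, rfl⟩ := List.mem_map.1 h
        have := h1.1 k hk
        simp only [(mem_subs.1 hu).1]
        omega
    rw [List.foldl_cons]
    generalize ns.foldl (level S) (level S t0 n) = t at h3 ⊢
    rw [List.flatMap_cons, List.map_append, ← List.append_assoc]
    conv_lhs => rw [h3]
    congr 1
    unfold level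
    congr 1
    apply List.map_congr_left
    intro u hu
    have h4 : lng t u = t0 := by
      have h5 := (mem_subs.1 hu).1
      rw [h3, lng, level, List.filter_append, List.filter_append, List.filter_eq_self.2,
        List.filter_eq_nil_iff.2, List.filter_eq_nil_iff.2, List.append_nil, List.append_nil]
      · intro x hx
        obtain ⟨w, hw, rfl⟩ := List.mem_map.1 hx
        obtain ⟨k, hk, hw⟩ := List.mem_flatMap.1 hw
        have := h1.1 k hk
        simp [(mem_subs.1 hw).1]
        omega
      · intro x hx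
        obtain ⟨w, hw, rfl⟩ := List.mem_map.1 hx
        simp [(mem_subs.1 hw).1]
        omega
      · intro x hx
        have := h2 x hx n (by simp)
        simp
        omega
    rw [h4]

theorem sum_rg (w : Str) (f : ℕ → ℕ) : ((rg w).map f).sum = ∑ e ∈ range w.length, f e := by
  unfold rg
  induction w.length with
  | zero => simp
  | succ n ih => rw [List.range_succ, List.map_append, List.sum_append, ih, sum_range_succ]; simp

theorem lng_map (l : List Str) (m : Str → ℕ) (u : Str) : lng (l.map fun w => (w, m w)) u =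
    (l.filter fun w => u.length < w.length).map fun w => (w, m w) := by
  rw [lng, List.filter_map]; rfl

theorem sum_lng {l : List Str} (hl : l.Nodup) (m : Str → ℕ) (u : Str) (φ : Str × ℕ → ℕ) :
    ((lng (l.map fun w => (w, m w)) u).map φ).sum = ∑ w ∈ longer l.toFinset u, φ (w, m w) := by
  rw [lng_map, List.map_map, ← List.sum_toFinset _ (hl.filter _), List.toFinset_filter, longer]
  simp

/-- the properties of the forced counts -/
structure Cnt (S : List Str) (U : Finset Str) (m : Str → ℕ) : Prop where
  mem : ∀ u, u ∈ U ↔ u ≠ [] ∧ ∃ s ∈ S, u <:+: s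
  hL : ∀ u ∈ U, ∑ w ∈ longer U u, (if w.tail = u then m w else 0) ≤ m u
  hR : ∀ u ∈ U, ∑ w ∈ longer U u, (if w.take (w.length - 1) = u then m w else 0) ≤ m u
  one : ∀ s ∈ S, s ≠ [] → 1 ≤ m s
  rule : ∀ u ∈ U, ∀ v ∈ U, u.length < v.length → u <+: v → u <:+ v → CL0 U m u v < m v →
    m v + CL1 U m u v + 1 ≤ m u
  valid : ∀ T : Str, (∀ s ∈ S, s <:+: T) → ∀ u ∈ U, m u ≤ (occS T u).card
  le : ∀ u, m u ≤ S.flatten.length

theorem sumL_eq {l : List Str} (hl : l.Nodup) (m : Str → ℕ) (u : Str) :
    sumL (lng (l.map fun w => (w, m w)) u) u =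
      ∑ w ∈ longer l.toFinset u, (if w.tail = u then m w else 0) := by
  rw [sumL, sum_lng hl]
  refine sum_congr rfl fun w _ => ?_
  simp [eqL]

theorem sumR_eq {l : List Str} (hl : l.Nodup) (m : Str → ℕ) (u : Str) :
    sumR (lng (l.map fun w => (w, m w)) u) u =
      ∑ w ∈ longer l.toFinset u, (if w.take (w.length - 1) = u then m w else 0) := by
  rw [sumR, sum_lng hl]
  refine sum_congr rfl fun w _ => ?_
  simp [eqL]

theorem cl1_eq {l : List Str} (hl : l.Nodup) (m : Str → ℕ) (u v : Str) :
    cl1 (lng (l.map fun w => (w, m w)) u) u v = CL1 l.toFinset m u v := by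
  rw [cl1, sum_lng hl, CL1]
  exact sum_congr rfl fun w _ => sum_rg _ _

theorem cl0_eq {l : List Str} (hl : l.Nodup) (m : Str → ℕ) (u v : Str) :
    cl0 (lng (l.map fun w => (w, m w)) u) u v = CL0 l.toFinset m u v := by
  rw [cl0, sum_lng hl, CL0]
  exact sum_congr rfl fun w _ => sum_rg _ _

theorem val_le {S : List Str} {l : List Str} (hl : l.Nodup) (m : Str → ℕ) (u : Str) (b : ℕ) :
    val S (lng (l.map fun w => (w, m w)) u) u ≤ b ↔
      ∑ w ∈ longer l.toFinset u, (if w.tail = u then m w else 0) ≤ b ∧
      ∑ w ∈ longer l.toFinset u, (if w.take (w.length - 1) = u then m w else 0) ≤ b ∧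
      (u ∈ S → 1 ≤ b) ∧ ∀ v ∈ l.toFinset, u.length < v.length → u <+: v → u <:+ v →
        CL0 l.toFinset m u v < m v → m v + CL1 l.toFinset m u v + 1 ≤ b := by
  rw [val, maxL_le]
  simp only [List.mem_cons, List.not_mem_nil, or_false, forall_eq_or_imp, forall_eq, sumL_eq hl,
    sumR_eq hl]
  refine and_congr Iff.rfl (and_congr Iff.rfl (and_congr ?_ ?_))
  · by_cases h : u ∈ S
    · have e : S.any (fun s => eqL u s) = true := List.any_eq_true.2 ⟨u, h, eqL_iff.2 rfl⟩
      simp [e, h]
    · have e : S.any (fun s => eqL u s) = false := by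
        rw [List.any_eq_false]
        intro y hy h1
        exact h (eqL_iff.1 h1 ▸ hy)
      simp [e, h]
  · rw [rule, maxL_le]
    simp only [cl0_eq hl, cl1_eq hl]
    rw [lng_map]
    simp only [List.map_map, List.mem_map, List.mem_filter, decide_eq_true_eq, Function.comp,
      List.mem_toFinset, forall_exists_index, and_imp]
    constructor
    · intro h v h1 h2 h3 h4 h5
      have := h _ v h1 h2 rfl
      rwa [pre_iff.2 h3, suf_iff.2 h4, ltb_eq, decide_eq_true h5] at this
    · rintro h _ v h1 h2 rfl
      cases e : (pre u v && suf u v && ltb (CL0 l.toFinset m u v) (m v))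
      · simp
      · simp only [Bool.and_eq_true, pre_iff, suf_iff, ltb_eq, decide_eq_true_eq] at e
        exact h v h1 h2 e.1.1 e.1.2 e.2

theorem table_spec (S : List Str) : ∃ (l : List Str) (m : Str → ℕ),
    table S = l.map (fun u => (u, m u)) ∧ l.Nodup ∧
    l.Pairwise (fun a b => b.length ≤ a.length) ∧ Cnt S l.toFinset m := by
  have hp : (rg S.flatten).reverse.Pairwise (· > ·) := by
    rw [List.pairwise_reverse]; exact List.pairwise_lt_range
  have h := level_spec S _ [] hp (by simp)
  rw [List.nil_append] at h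
  obtain ⟨l, hl⟩ : ∃ l, l = (rg S.flatten).reverse.flatMap fun n => subs S (n + 1) := ⟨_, rfl⟩
  obtain ⟨m, hm⟩ : ∃ m : Str → ℕ,
      m = fun u => (S.flatten.take (val S (lng (table S) u) u)).length := ⟨_, rfl⟩
  have ht : table S = l.map fun u => (u, m u) := by rw [hl, hm]; exact h
  have hnd : l.Nodup := by
    rw [hl, List.nodup_flatMap]
    refine ⟨fun n _ => nodup_subs S _, hp.imp fun {a b} hab => ?_⟩
    intro u h1 h2
    have := (mem_subs.1 h1).1
    have := (mem_subs.1 h2).1
    omega
  have hmem : ∀ u, u ∈ l.toFinset ↔ u ≠ [] ∧ ∃ s ∈ S, u <:+: s := by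
    intro u
    simp only [hl, List.mem_toFinset, List.mem_flatMap, List.mem_reverse, mem_rg, mem_subs]
    constructor
    · rintro ⟨n, -, h1, h2⟩
      exact ⟨List.ne_nil_of_length_pos (by omega), h2⟩
    · rintro ⟨h1, s, hs, h2⟩
      have h3 := List.length_pos_iff.2 h1
      have h4 := h2.length_le
      have h5 := (List.sublist_flatten_of_mem hs).length_le
      exact ⟨u.length - 1, by omega, by omega, s, hs, h2⟩
  have hm1 : ∀ u, m u = min (val S (lng (l.map fun w => (w, m w)) u) u) S.flatten.length := by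
    intro u
    rw [← ht]
    simp only [hm, List.length_take]
  have hval : ∀ T : Str, (∀ s ∈ S, s <:+: T) → ∀ k, ∀ u ∈ l.toFinset, T.length < u.length + k →
      val S (lng (l.map fun w => (w, m w)) u) u ≤ (occS T u).card := by
    intro T hT k
    induction k with
    | zero =>
      intro u hu h1
      obtain ⟨-, s, hs, h2⟩ := (hmem u).1 hu
      have := (h2.trans (hT s hs)).length_le
      omega
    | succ k ih =>
      intro u hu h1
      have h2 : ∀ w ∈ longer l.toFinset u, m w ≤ (occS T w).card := fun w hw => by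
        rw [hm1]
        have := (mem_filter.1 hw).2
        exact (min_le_left _ _).trans (ih w (mem_filter.1 hw).1 (by omega))
      have h3 := ((hmem u).1 hu).1
      rw [val_le hnd]
      refine ⟨le_trans (sum_le_sum fun w hw => ?_) (valid_L T l.toFinset h3),
        le_trans (sum_le_sum fun w hw => ?_) (valid_R T l.toFinset u),
        fun hs => occ_pos (hT u hs) h3, fun v hv b1 b2 b3 b4 =>
          valid_rule T _ m h3 b1 b2 b3 h2 (h2 v (mem_filter.2 ⟨hv, b1⟩)) b4⟩
      · split_ifs
        · exact h2 w hw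
        · exact le_rfl
      · split_ifs
        · exact h2 w hw
        · exact le_rfl
  have hm2 : ∀ u ∈ l.toFinset, val S (lng (l.map fun w => (w, m w)) u) u ≤ m u := by
    intro u hu
    rw [hm1 u]
    exact le_min le_rfl ((hval S.flatten (fun s hs => List.infix_of_mem_flatten hs)
      (S.flatten.length + 1) u hu (by omega)).trans (occ_le _ _))
  refine ⟨l, m, ht, hnd, ?_, hmem, fun u hu => ((val_le hnd m u _).1 (hm2 u hu)).1,
    fun u hu => ((val_le hnd m u _).1 (hm2 u hu)).2.1, fun s hs h1 => ((val_le hnd m s _).1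
      (hm2 s ((hmem s).2 ⟨h1, s, hs, List.infix_rfl⟩))).2.2.1 hs,
    fun u hu => ((val_le hnd m u _).1 (hm2 u hu)).2.2.2, fun T hT u hu => ?_, fun u => ?_⟩
  · rw [hl, List.pairwise_flatMap]
    refine ⟨fun n _ => List.pairwise_of_forall_mem_list fun a ha b hb => ?_,
      hp.imp fun {a b} hab => ?_⟩
    · rw [(mem_subs.1 ha).1, (mem_subs.1 hb).1]
    · intro x hx y hy
      rw [(mem_subs.1 hx).1, (mem_subs.1 hy).1]
      omega
  · rw [hm1]
    exact (min_le_left _ _).trans (hval T hT (T.length + 1) u hu (by omega))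
  · rw [hm1]
    exact min_le_right _ _

end Vale.Agent.P333
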