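import Vale.Agent.P333.Key

/-! The rules for the counts hold for the numbers of occurrences in any string. -/

namespace Vale.Agent.P333

open Finset

def occS (T x : Str) : Finset ℕ := (range T.length).filter fun a => x <+: T.drop a

theorem mem_occS {T x : Str} {a : ℕ} (hx : x ≠ []) : a ∈ occS T x ↔ x <+: T.drop a := by
  rw [occS, mem_filter, mem_range, and_iff_right_iff_imp]
  intro h
  have h1 := h.length_le
  have h2 := List.length_pos_iff.2 hx
  rw [List.length_drop] at h1
  omega

theorem pre_drop_iff {T x : Str} {a : ℕ} (hx : x ≠ []) : x <+: T.drop a ↔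
    a + x.length ≤ T.length ∧ ∀ k < x.length, x.getD k 0 = T.getD (a + k) 0 := by
  have h2 := List.length_pos_iff.2 hx
  constructor
  · intro h
    have h1 := h.length_le
    rw [List.length_drop] at h1
    refine ⟨by omega, fun k hk => ?_⟩
    rw [List.getD_eq_getElem _ _ hk, List.getD_eq_getElem _ _ (by omega), h.getElem hk,
      List.getElem_drop]
  · rintro ⟨h1, h3⟩
    rw [List.prefix_iff_eq_take]
    apply List.ext_getElem (by simp; omega)
    intro k b1 b2
    have := h3 k b1
    rw [List.getD_eq_getElem _ _ b1, List.getD_eq_getElem _ _ (by omega)] at this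
    rw [this, List.getElem_take, List.getElem_drop]

theorem occ_le (T x : Str) : (occS T x).card ≤ T.length :=
  (card_filter_le _ _).trans (card_range _).le

theorem occ_pos {T s : Str} (h : s <:+: T) (hs : s ≠ []) : 1 ≤ (occS T s).card := by
  obtain ⟨a, b, rfl⟩ := h
  exact card_pos.2 ⟨a.length, (mem_occS hs).2 (by simp)⟩

theorem ne_nil_of_longer {U : Finset Str} {u w : Str} (h : w ∈ longer U u) : w ≠ [] :=
  List.ne_nil_of_length_pos (lt_of_le_of_lt (Nat.zero_le _) (mem_filter.1 h).2)

theorem valid_L (T : Str) (U : Finset Str) {u : Str} (hu : u ≠ []) :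
    ∑ w ∈ longer U u, (if w.tail = u then (occS T w).card else 0) ≤ (occS T u).card := by
  rw [← sum_filter, ← card_sigma]
  refine card_le_card_of_injOn (fun x => x.2 + 1) ?_ ?_
  · rintro ⟨w, a⟩ hx
    simp only [coe_sigma, Set.mem_sigma_iff, mem_coe, mem_filter] at hx
    obtain ⟨⟨h1, rfl⟩, h3⟩ := hx
    rw [mem_occS (ne_nil_of_longer h1)] at h3
    rw [mem_coe, mem_occS hu, ← List.tail_drop]
    obtain ⟨t, ht⟩ := h3
    rw [← ht, List.tail_append_of_ne_nil (ne_nil_of_longer h1)]
    exact List.prefix_append _ _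
  · rintro ⟨w, a⟩ hx ⟨w', a'⟩ hy h
    simp only [coe_sigma, Set.mem_sigma_iff, mem_coe, mem_filter] at hx hy
    obtain rfl : a = a' := by simpa using h
    have h1 := (mem_occS (ne_nil_of_longer hx.1.1)).1 hx.2
    have h2 := (mem_occS (ne_nil_of_longer hy.1.1)).1 hy.2
    have h3 := congrArg List.length (hx.1.2.trans hy.1.2.symm)
    have h4 := List.length_pos_iff.2 (ne_nil_of_longer hx.1.1)
    have h5 := List.length_pos_iff.2 (ne_nil_of_longer hy.1.1)
    rw [List.length_tail, List.length_tail] at h3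
    obtain rfl : w = w' := by
      rw [List.prefix_iff_eq_take.1 h1, List.prefix_iff_eq_take.1 h2,
        show w.length = w'.length by omega]
    rfl

theorem valid_R (T : Str) (U : Finset Str) (u : Str) :
    ∑ w ∈ longer U u, (if w.take (w.length - 1) = u then (occS T w).card else 0) ≤
      (occS T u).card := by
  rw [← sum_filter, ← card_sigma]
  refine card_le_card_of_injOn (fun x => x.2) ?_ ?_
  · rintro ⟨w, a⟩ hx
    simp only [coe_sigma, Set.mem_sigma_iff, mem_coe, mem_filter, occS] at hx ⊢
    obtain ⟨⟨h1, rfl⟩, h3⟩ := hx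
    exact ⟨h3.1, (List.take_prefix _ _).trans h3.2⟩
  · rintro ⟨w, a⟩ hx ⟨w', a'⟩ hy h
    simp only [coe_sigma, Set.mem_sigma_iff, mem_coe, mem_filter] at hx hy
    obtain rfl : a = a' := h
    have h1 := (mem_occS (ne_nil_of_longer hx.1.1)).1 hx.2
    have h2 := (mem_occS (ne_nil_of_longer hy.1.1)).1 hy.2
    have h3 := congrArg List.length (hx.1.2.trans hy.1.2.symm)
    have h4 := List.length_pos_iff.2 (ne_nil_of_longer hx.1.1)
    have h5 := List.length_pos_iff.2 (ne_nil_of_longer hy.1.1)
    rw [List.length_take, List.length_take] at h3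
    obtain rfl : w = w' := by
      rw [List.prefix_iff_eq_take.1 h1, List.prefix_iff_eq_take.1 h2,
        show w.length = w'.length by omega]
    rfl

theorem om_per (v : Str) (p : ℕ) (n k : ℤ) : om v p (n + p * k) = om v p n := by
  rw [om, om, Int.add_mul_emod_self_left]

theorem om_getD {u v : Str} (h : u.length < v.length) (h1 : u <+: v) (h2 : u <:+ v) (n : ℕ) :
    n < v.length → v.getD n 0 = om v (v.length - u.length) n := by
  induction n using Nat.strong_induction_on with
  | _ n ih =>
    intro hn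
    by_cases h3 : n < v.length - u.length
    · rw [om, ← Int.natCast_mod, Int.toNat_natCast, Nat.mod_eq_of_lt h3]
    · obtain ⟨k, rfl⟩ := Nat.exists_eq_add_of_le (not_lt.1 h3)
      have h4 := om_per v (v.length - u.length) k 1
      rw [mul_one, add_comm, ← Nat.cast_add] at h4
      rw [h4, ← ih k (by omega) (by omega)]
      obtain ⟨s, hs⟩ := h1
      obtain ⟨t, ht⟩ := h2
      have h5 : t.length = v.length - u.length := by
        have := congrArg List.length ht
        rw [List.length_append] at this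
        omega
      rw [← h5]
      conv_lhs => rw [← ht, List.getD_append_right _ _ _ _ (by omega), Nat.add_sub_cancel_left]
      conv_rhs => rw [← hs, List.getD_append _ _ _ _ (by omega)]

theorem dev_of_cp {T u v w : Str} {e b : ℕ} (h : u.length < v.length) (hw : w ≠ [])
    (h1 : cp u v w e = true) (h2 : w <+: T.drop b) :
    1 ≤ e ∧ u.length + e < w.length ∧ w.length ≤ v.length + e ∧ b + w.length ≤ T.length ∧
      Dev (fun n => T.getD ((b + e : ℕ) + n).toNat 0) (om v (v.length - u.length)) (-e)
        ((w.length - 1 - e : ℕ)) := by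
  rw [pre_drop_iff hw] at h2
  rw [cp_iff h, CP_iff_dev (f := fun n => T.getD ((b + e : ℕ) + n).toNat 0) fun k hk => by
    rw [h2.2 k hk]; congr 1; omega] at h1
  obtain ⟨a1, a2, a3, a4⟩ := h1
  rw [← Nat.cast_sub (by omega)] at a4
  exact ⟨a1, a2, a3, h2.1, a4⟩

theorem chain_agree {T u v : Str} (hu : u ≠ []) (h : u.length < v.length) (h1 : u <+: v)
    (h2 : u <:+ v) (a : ℕ) (k : ℕ) :
    (∀ j ≤ k, v <+: T.drop (a + (v.length - u.length) * j)) →
    ∀ n ≤ (v.length - u.length) * (k + 1), T.getD (a + n) 0 = om v (v.length - u.length) n := by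
  have hv : v ≠ [] := List.ne_nil_of_length_pos (by omega)
  have h0 := List.length_pos_iff.2 hu
  induction k with
  | zero =>
    intro h3 n hn
    have := ((pre_drop_iff hv).1 (h3 0 le_rfl)).2 n (by omega)
    rw [← om_getD h h1 h2 n (by omega), this]
    simp
  | succ k ih =>
    intro h3 n hn
    by_cases h4 : n ≤ (v.length - u.length) * (k + 1)
    · exact ih (fun j hj => h3 j (by omega)) n h4
    · obtain ⟨d, rfl⟩ := Nat.exists_eq_add_of_le (not_le.1 h4).le
      rw [Nat.mul_succ _ (k + 1)] at hn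
      have := ((pre_drop_iff hv).1 (h3 (k + 1) le_rfl)).2 d (by omega)
      rw [← add_assoc, ← this, om_getD h h1 h2 d (by omega), ← om_per v _ d (k + 1)]
      congr 1
      push_cast
      ring

theorem valid_rule (T : Str) (U : Finset Str) (m : Str → ℕ) {u v : Str} (hu : u ≠ [])
    (h : u.length < v.length) (h1 : u <+: v) (h2 : u <:+ v)
    (hm : ∀ w ∈ longer U u, m w ≤ (occS T w).card) (hmv : m v ≤ (occS T v).card)
    (h0 : CL0 U m u v < m v) : m v + CL1 U m u v + 1 ≤ (occS T u).card := by
  have hv : v ≠ [] := List.ne_nil_of_length_pos (by omega)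
  have hul := List.length_pos_iff.2 hu
  have hch : ∀ w, ∃ O : Finset ℕ, w ∈ longer U u → O ⊆ occS T w ∧ O.card = m w := by
    intro w
    by_cases hw : w ∈ longer U u
    · obtain ⟨O, hO⟩ := exists_subset_card_eq (hm w hw)
      exact ⟨O, fun _ => hO⟩
    · exact ⟨∅, fun h => absurd h hw⟩
  choose O hO using hch
  let Q := ((longer U u).sigma fun w => (range w.length).filter
    fun e => cp u v w e = true).sigma fun x => O x.1
  have hQ : Q.card = CL1 U m u v := by
    rw [card_sigma, sum_sigma, CL1]
    refine sum_congr rfl fun w hw => ?_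
    rw [sum_filter]
    refine sum_congr rfl fun e _ => ?_
    rw [(hO w hw).2]
    cases cp u v w e <;> simp
  have hQ0 : (Q.sigma fun x => range ((x.1.2 - 1) / (v.length - u.length))).card =
      CL0 U m u v := by
    rw [card_sigma, sum_sigma, sum_sigma, CL0]
    refine sum_congr rfl fun w hw => ?_
    rw [sum_filter]
    refine sum_congr rfl fun e _ => ?_
    simp only [card_range, sum_const, smul_eq_mul, (hO w hw).2]
    cases cp u v w e <;> simp
  have hmem : ∀ x ∈ Q, x.1.1 <+: T.drop x.2 ∧ 1 ≤ x.1.2 ∧ u.length + x.1.2 < x.1.1.length ∧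
      x.1.1.length ≤ v.length + x.1.2 ∧ x.2 + x.1.1.length ≤ T.length ∧
      Dev (fun n => T.getD ((x.2 + x.1.2 : ℕ) + n).toNat 0) (om v (v.length - u.length)) (-x.1.2)
        ((x.1.1.length - 1 - x.1.2 : ℕ)) := by
    rintro ⟨⟨w, e⟩, b⟩ hx
    simp only [Q, mem_sigma, mem_filter] at hx
    obtain ⟨⟨b1, -, b2⟩, b3⟩ := hx
    have b4 := (mem_occS (ne_nil_of_longer b1)).1 ((hO w b1).1 b3)
    exact ⟨b4, dev_of_cp h (ne_nil_of_longer b1) b2 b4⟩
  have hsub : occS T v ⊆ occS T u := fun a ha =>
    (mem_occS hu).2 (h1.trans ((mem_occS hv).1 ha))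
  have hcard := card_sdiff_add_card_eq_card hsub
  by_contra hcon
  have hmaps : ∀ x ∈ Q, x.2 + x.1.2 ∈ occS T u \ occS T v := by
    intro x hx
    obtain ⟨-, b1, b2, b3, b4, b5⟩ := hmem x hx
    rw [mem_sdiff, mem_occS hu, mem_occS hv, pre_drop_iff hu, pre_drop_iff hv]
    refine ⟨⟨by omega, fun k hk => ?_⟩, fun b6 => b5.2.2 ?_⟩
    · have b6 := b5.1 k (by omega) (by omega)
      beta_reduce at b6
      rw [← om_getD h h1 h2 k (by omega), ← Nat.cast_add, Int.toNat_natCast] at b6
      obtain ⟨t, ht⟩ := h1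
      rw [b6, ← ht, List.getD_append _ _ _ _ hk]
    · beta_reduce
      rw [← om_getD h h1 h2 _ (by omega), b6.2 _ (by omega), ← Nat.cast_add, Int.toNat_natCast]
  have hsurj := surj_on_of_inj_on_of_card_le (s := Q) (t := occS T u \ occS T v)
    (fun x _ => x.2 + x.1.2) hmaps (by
      rintro ⟨⟨w, e⟩, b⟩ ⟨⟨w', e'⟩, b'⟩ hx hy e0
      obtain ⟨b0, b1, b2, b3, b4, b5⟩ := hmem _ hx
      obtain ⟨g0, g1, g2, g3, g4, g5⟩ := hmem _ hy
      simp only at e0 b0 b1 b2 b3 b4 b5 g0 g1 g2 g3 g4 g5
      rw [e0] at b5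
      obtain ⟨c1, c2⟩ := b5.unique g5 (by omega) (by omega) (by omega) (by omega)
      obtain rfl : e = e' := by omega
      obtain rfl : b = b' := by omega
      obtain rfl : w = w' := by
        rw [List.prefix_iff_eq_take.1 b0, List.prefix_iff_eq_take.1 g0,
          show w.length = w'.length by omega]
      rfl) (by omega)
  have hcover : occS T v ⊆ (Q.sigma fun x => range ((x.1.2 - 1) / (v.length - u.length))).image
      fun y => y.1.2 + y.1.1.2 - (v.length - u.length) * (y.2 + 1) := by
    intro a ha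
    rw [mem_occS hv] at ha
    have hex : ∃ k, ¬ v <+: T.drop (a + (v.length - u.length) * (k + 1)) := by
      refine ⟨T.length, fun b1 => ?_⟩
      have b2 := ((pre_drop_iff hv).1 b1).1
      have b3 : 1 * (T.length + 1) ≤ (v.length - u.length) * (T.length + 1) :=
        Nat.mul_le_mul_right _ (by omega)
      omega
    obtain ⟨k, hk1, hk2⟩ : ∃ k, ¬ v <+: T.drop (a + (v.length - u.length) * (k + 1)) ∧
        ∀ j ≤ k, v <+: T.drop (a + (v.length - u.length) * j) := by
      refine ⟨Nat.find hex, Nat.find_spec hex, fun j hj => ?_⟩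
      cases j with
      | zero => simpa using ha
      | succ j => simpa using Nat.find_min hex (m := j) (by omega)
    have hE : a + (v.length - u.length) * (k + 1) ∈ occS T u \ occS T v := by
      rw [mem_sdiff, mem_occS hu, mem_occS hv]
      refine ⟨?_, hk1⟩
      obtain ⟨t, ht⟩ := hk2 k le_rfl
      rw [Nat.mul_succ, ← add_assoc, ← List.drop_drop, ← ht,
        List.drop_append_of_le_length (by omega), ← List.suffix_iff_eq_drop.1 h2]
      exact List.prefix_append _ _
    obtain ⟨x, hx, e0⟩ := hsurj _ hE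
    obtain ⟨-, b1, b2, b3, b4, b5⟩ := hmem x hx
    refine mem_image.2 ⟨⟨x, k⟩, mem_sigma.2 ⟨hx, mem_range.2 ?_⟩, by simp only; omega⟩
    apply (Nat.le_div_iff_mul_le (by omega)).2
    by_contra b6
    simp only [Nat.succ_eq_add_one] at b6
    rw [mul_comm] at b6
    apply b5.2.1
    have b7 := chain_agree hu h h1 h2 a k hk2 ((v.length - u.length) * (k + 1) - x.1.2) (by omega)
    rw [← om_per v _ _ (k + 1)]
    simp only
    rw [show (((x.2 + x.1.2 : ℕ) : ℤ) + -x.1.2).toNat =
      a + ((v.length - u.length) * (k + 1) - x.1.2) by omega, b7]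
    congr 1
    rw [Nat.cast_sub (by omega)]
    push_cast
    ring
  have := (card_le_card hcover).trans card_image_le
  omega

end Vale.Agent.P333
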