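import Vale.Agent.P333.Defs

/-! Systems of rows with a successor permutation, and their periodic words. -/

namespace Vale.Agent.P333

open Finset

/-- the factor of length `l` at position `a` of a two-sided word -/
def seg (f : ℤ → ℕ) (a : ℤ) (l : ℕ) : Str := (List.range l).map fun k : ℕ => f (a + k)

@[simp] theorem seg_length (f : ℤ → ℕ) (a : ℤ) (l : ℕ) : (seg f a l).length = l := by simp [seg]

theorem seg_getD (f : ℤ → ℕ) (a : ℤ) {l k : ℕ} (h : k < l) : (seg f a l).getD k 0 = f (a + k) := by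
  rw [List.getD_eq_getElem _ _ (by simpa using h)]
  simp [seg]

theorem seg_ext {f g : ℤ → ℕ} {a b : ℤ} {l : ℕ} (h : ∀ k : ℕ, k < l → f (a + k) = g (b + k)) :
    seg f a l = seg g b l :=
  List.map_congr_left fun k hk => h k (List.mem_range.1 hk)

theorem seg_inj {f g : ℤ → ℕ} {a b : ℤ} {l : ℕ} (h : seg f a l = seg g b l) {k : ℕ} (hk : k < l) :
    f (a + k) = g (b + k) := by
  rw [← seg_getD f a hk, h, seg_getD g b hk]

theorem eq_seg {y : Str} {f : ℤ → ℕ} {a : ℤ} (h : ∀ k < y.length, y.getD k 0 = f (a + k)) :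
    y = seg f a y.length := by
  apply List.ext_getElem (by simp)
  intro k h1 h2
  rw [← List.getD_eq_getElem _ 0 h1, ← List.getD_eq_getElem _ 0 h2, h k h1, seg_getD f a h1]

theorem seg_append (f : ℤ → ℕ) (a : ℤ) (l m : ℕ) :
    seg f a l ++ seg f (a + l) m = seg f a (l + m) := by
  simp only [seg, List.range_add, List.map_append, List.map_map]
  congr 1
  apply List.map_congr_left
  intro k _
  simp [add_assoc]

theorem seg_take (f : ℤ → ℕ) (a : ℤ) {l k : ℕ} (h : k ≤ l) : (seg f a l).take k = seg f a k := by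
  obtain ⟨m, rfl⟩ := Nat.exists_eq_add_of_le h
  rw [← seg_append, List.take_left' (by simp)]

theorem seg_drop (f : ℤ → ℕ) (a : ℤ) {l k : ℕ} (h : k ≤ l) :
    (seg f a l).drop k = seg f (a + k) (l - k) := by
  obtain ⟨m, rfl⟩ := Nat.exists_eq_add_of_le h
  rw [← seg_append, List.drop_left' (by simp), Nat.add_sub_cancel_left]

theorem seg_pre (f : ℤ → ℕ) (a : ℤ) {l k : ℕ} (h : k ≤ l) : seg f a k <+: seg f a l := by
  rw [← seg_take f a h]; exact List.take_prefix _ _

theorem seg_suf (f : ℤ → ℕ) {a b : ℤ} {l m : ℕ} (h : a ≤ b) (e : b + m = a + l) :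
    seg f b m <:+ seg f a l := by
  obtain ⟨k, rfl⟩ := Int.le.dest h
  have : l = k + m := by omega
  subst this
  rw [← seg_append]
  exact List.suffix_append _ _

/-- rows with a successor permutation -/
structure Sys (ι : Type) where
  σ : Equiv.Perm ι
  r : ι → Str
  ne : ∀ i, r i ≠ []
  tl : ∀ i, (r i).tail <+: r (σ i)

namespace Sys

variable {ι : Type} (A : Sys ι)

def X (i : ι) (n : ℤ) : ℕ := (A.r ((A.σ ^ n) i)).headD 0
noncomputable def p (i : ι) : ℕ := Function.minimalPeriod A.σ i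
def word (i : ι) (l : ℕ) : Str := seg (A.X i) 0 l
def hi (i : ι) (a : ℤ) : ℤ := a + (A.r ((A.σ ^ a) i)).length
def Same (i j : ι) : Prop := A.σ.SameCycle i j

/-- vertices of the closed curve through the row `i` -/
def Vert (i : ι) (y : Str) : Prop :=
  ∃ j, A.Same i j ∧ ∃ l, (A.r j).length ≤ l + 1 ∧ l ≤ (A.r (A.σ j)).length ∧
    y = (A.r (A.σ j)).take l

def Touch (Y : Str) (i : ι) : Prop := ∃ y, (y <+: Y ∨ y <:+ Y) ∧ A.Vert i y

/-- a high exit -/
def Ex (i j : ι) (l : ℕ) : Prop :=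
  A.p i ≤ (A.r i).length ∧ (A.r i).length + A.p i < l ∧ (A.r j).length ≤ l + 1 ∧
    l < (A.r (A.σ j)).length ∧ (A.r (A.σ j)).take l = A.word i l ∧
    (A.r (A.σ j)).getD l 0 ≠ (A.r (A.σ j)).getD (l - A.p i) 0

def Prim : Prop := ∀ i j, A.Same i j → A.X i = A.X j → i = j

def Key : Prop := ∀ i, A.p i < (A.r i).length → ∃ j, ¬ A.r i <+: A.r j ∧
  (A.r i).take ((A.r i).length - A.p i) <+: A.r j ∧
  ∀ e c : ℕ, 1 ≤ e → (A.r i).length ≤ c + A.p i → c < (A.r i).length →
    (∀ n : ℤ, -(e : ℤ) < n → n < c → A.X j n = A.X i n) → A.X j (-e) ≠ A.X i (-e) →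
    A.X j c ≠ A.X i c → A.hi j (-e) ≤ c

theorem pow_pow (a b : ℤ) (i : ι) : (A.σ ^ a) ((A.σ ^ b) i) = (A.σ ^ (a + b)) i := by
  rw [zpow_add, Equiv.Perm.mul_apply]

theorem pow_succ (a : ℤ) (i : ι) : A.σ ((A.σ ^ a) i) = (A.σ ^ (a + 1)) i := by
  rw [add_comm, ← A.pow_pow, zpow_one]

theorem X_pow (a : ℤ) (i : ι) (n : ℤ) : A.X ((A.σ ^ a) i) n = A.X i (a + n) := by
  rw [X, X, A.pow_pow, add_comm]

theorem hi_pow (a : ℤ) (i : ι) (n : ℤ) : A.hi ((A.σ ^ a) i) n + a = A.hi i (a + n) := by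
  rw [hi, hi, A.pow_pow, add_comm n a]; ring

theorem hi_zero (i : ι) : A.hi i 0 = (A.r i).length := by simp [hi]

theorem len_pos (i : ι) : 0 < (A.r i).length := List.length_pos_iff.2 (A.ne i)

theorem len_le (i : ι) : (A.r i).length ≤ (A.r (A.σ i)).length + 1 := by
  have := (A.tl i).length_le
  rw [List.length_tail] at this
  omega

theorem r_getD {k : ℕ} : ∀ {i : ι}, k < (A.r i).length → (A.r i).getD k 0 = A.X i k := by
  induction k with
  | zero =>
    intro i _
    simp only [X, Nat.cast_zero, zpow_zero, Equiv.Perm.one_apply]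
    cases A.r i <;> rfl
  | succ k ih =>
    intro i h
    have h1 := A.len_le i
    have h2 := ih (i := A.σ i) (by omega)
    have h3 := A.X_pow 1 i k
    rw [zpow_one] at h3
    rw [Nat.cast_succ, add_comm (k : ℤ), ← h3, ← h2]
    obtain ⟨t, ht⟩ := A.tl i
    rw [← ht, List.getD_append _ _ _ _ (by rw [List.length_tail]; omega)]
    cases A.r i <;> simp

theorem r_eq (i : ι) : A.r i = A.word i (A.r i).length :=
  eq_seg fun k hk => by rw [A.r_getD hk, zero_add]

theorem word_pow (a : ℤ) (i : ι) (l : ℕ) : A.word ((A.σ ^ a) i) l = seg (A.X i) a l :=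
  seg_ext fun k _ => by rw [A.X_pow, zero_add]

theorem r_pow (a : ℤ) (i : ι) :
    A.r ((A.σ ^ a) i) = seg (A.X i) a (A.r ((A.σ ^ a) i)).length := by
  rw [← A.word_pow, ← A.r_eq]

theorem take_r {i : ι} {l : ℕ} (h : l ≤ (A.r i).length) : (A.r i).take l = A.word i l := by
  rw [A.r_eq i, word, seg_take _ _ h, word]

theorem hi_gt (i : ι) (a : ℤ) : a < A.hi i a := by
  have := A.len_pos ((A.σ ^ a) i)
  rw [hi]; omega

theorem hi_mono (i : ι) : Monotone (A.hi i) := by
  apply monotone_int_of_le_succ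
  intro a
  have := A.len_le ((A.σ ^ a) i)
  rw [A.pow_succ] at this
  rw [hi, hi]; omega

theorem Same.refl (i : ι) : A.Same i i := Equiv.Perm.SameCycle.refl _ _

variable {A} in
theorem Same.symm {i j : ι} (h : A.Same i j) : A.Same j i := Equiv.Perm.SameCycle.symm h

variable {A} in
theorem Same.trans {i j k : ι} (h : A.Same i j) (h' : A.Same j k) : A.Same i k :=
  Equiv.Perm.SameCycle.trans h h'

theorem same_pow (i : ι) (a : ℤ) : A.Same i ((A.σ ^ a) i) := ⟨a, rfl⟩

variable {A} in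
theorem Vert.same {i j : ι} {y : Str} (h : A.Vert i y) (e : A.Same j i) : A.Vert j y := by
  obtain ⟨k, h1, h2⟩ := h
  exact ⟨k, e.trans h1, h2⟩

variable {A} in
theorem Touch.same {i j : ι} {y : Str} (h : A.Touch y i) (e : A.Same j i) : A.Touch y j := by
  obtain ⟨k, h1, h2⟩ := h
  exact ⟨k, h1, h2.same e⟩

theorem vert_seg (i : ι) (a : ℤ) (l : ℕ) (h1 : A.hi i (a - 1) ≤ a + l) (h2 : a + l ≤ A.hi i a) :
    A.Vert i (seg (A.X i) a l) := by
  rw [hi] at h1 h2
  refine ⟨(A.σ ^ (a - 1)) i, A.same_pow _ _, l, by omega, ?_, ?_⟩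
  · rw [A.pow_succ, sub_add_cancel]; omega
  · rw [A.pow_succ, sub_add_cancel, A.take_r (by omega), A.word_pow]

theorem vert_row (i : ι) (a : ℤ) : A.Vert i (A.r ((A.σ ^ a) i)) := by
  rw [A.r_pow]
  exact A.vert_seg i a _ (A.hi_mono i (by omega)) le_rfl

theorem vert_self (i : ι) : A.Vert i (A.r i) := by simpa using A.vert_row i 0

variable [Fintype ι]

theorem col (i : ι) (c : ℤ) : ∃ b, b ≤ c ∧ A.hi i (b - 1) ≤ c ∧ c < A.hi i b := by
  obtain ⟨b, h1, h2⟩ := Int.exists_least_of_bdd (P := fun b => c < A.hi i b)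
    ⟨c - (univ.sup fun j => (A.r j).length : ℕ), fun z hz => by
      have := le_sup (f := fun j => (A.r j).length) (mem_univ ((A.σ ^ z) i))
      rw [hi] at hz
      omega⟩ ⟨c, A.hi_gt i c⟩
  refine ⟨b, h2 c (A.hi_gt i c), ?_, h1⟩
  by_contra h
  have := h2 (b - 1) (not_le.1 h)
  omega

theorem p_pos (i : ι) : 0 < A.p i :=
  Function.minimalPeriod_pos_of_mem_periodicPts
    (Function.Injective.mem_periodicPts A.σ.injective i)

omit [Fintype ι] in
theorem pow_p (i : ι) : (A.σ ^ (A.p i : ℤ)) i = i := by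
  rw [zpow_natCast, Equiv.Perm.coe_pow]
  exact Function.iterate_minimalPeriod

omit [Fintype ι] in
theorem pow_p_mul (i : ι) (k : ℤ) : (A.σ ^ (A.p i * k : ℤ)) i = i := by
  rw [zpow_mul]
  exact Equiv.Perm.zpow_apply_eq_self_of_apply_eq_self (A.pow_p i) k

omit [Fintype ι] in
theorem pow_neg_p (i : ι) : (A.σ ^ (-(A.p i : ℤ))) i = i := by
  simpa using A.pow_p_mul i (-1)

omit [Fintype ι] in
theorem X_per (i : ι) (n : ℤ) : A.X i (n + A.p i) = A.X i n := by
  rw [add_comm, ← A.X_pow, A.pow_p]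

omit [Fintype ι] in
theorem X_per_mul (i : ι) (n k : ℤ) : A.X i (n + A.p i * k) = A.X i n := by
  rw [add_comm, ← A.X_pow, A.pow_p_mul]

omit [Fintype ι] in
theorem hi_per_mul (i : ι) (n k : ℤ) : A.hi i (n + A.p i * k) = A.hi i n + A.p i * k := by
  rw [add_comm, ← A.hi_pow, A.pow_p_mul]

variable {A} in
theorem Same.nat {i j : ι} (h : A.Same i j) : ∃ k < A.p i, (A.σ ^ k) i = j := by
  obtain ⟨a, rfl⟩ := h
  have hp : (0 : ℤ) < A.p i := by exact_mod_cast A.p_pos i
  have h1 := Int.emod_nonneg a hp.ne'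
  have h2 := Int.emod_lt_of_pos a hp
  refine ⟨(a % A.p i).toNat, by omega, ?_⟩
  rw [← zpow_natCast, Int.toNat_of_nonneg h1]
  conv_rhs => rw [← Int.emod_add_mul_ediv a (A.p i), ← A.pow_pow, A.pow_p_mul]

open Classical in
theorem card_same (i : ι) : (univ.filter fun j => A.Same i j).card = A.p i := by
  have : (univ.filter fun j => A.Same i j) = (range (A.p i)).image fun k => (A.σ ^ k) i := by
    ext j
    simp only [mem_filter, mem_univ, true_and, mem_image, mem_range]
    exact ⟨fun h => h.nat, fun ⟨k, _, h⟩ => ⟨k, by rw [zpow_natCast, h]⟩⟩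
  rw [this, card_image_of_injOn, card_range]
  intro a ha b hb h
  simp only [Equiv.Perm.coe_pow] at h
  exact Function.iterate_injOn_Iio_minimalPeriod (by simpa [p] using ha) (by simpa [p] using hb) h

variable {A} in
theorem Same.p_eq {i j : ι} (h : A.Same i j) : A.p i = A.p j := by
  classical
  rw [← A.card_same, ← A.card_same]
  congr 1
  ext k
  simp only [mem_filter, mem_univ, true_and]
  exact ⟨fun e => h.symm.trans e, fun e => h.trans e⟩

open Classical in
/-- total period of pairwise different curves -/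
theorem card_list (L : List ι) (h : L.Pairwise fun i j => ¬ A.Same i j) :
    (univ.filter fun j => ∃ i ∈ L, A.Same i j).card = (L.map A.p).sum := by
  induction L with
  | nil => simp
  | cons a L ih =>
    rw [List.pairwise_cons] at h
    rw [List.map_cons, List.sum_cons, ← ih h.2, ← A.card_same, ← card_union_of_disjoint]
    · congr 1
      ext j
      simp
    · rw [disjoint_left]
      intro j h1 h2
      simp only [mem_filter, mem_univ, true_and] at h1 h2
      obtain ⟨i, hi, h3⟩ := h2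
      exact h.1 i hi (h1.trans h3.symm)

end Sys

end Vale.Agent.P333
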